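import Vale.Agent.P141.R2.H152.Core

/-!
# The form bound
-/

namespace Vale.Agent.P141.R2.H152

open MeasureTheory Set Vale.Agent.P141.H97
open scoped ENNReal

variable {ε R H c₁ c₂ c₃ : ℝ} {G₁ G₂ G₃ : ℝ × ℝ × ℝ → ℂ} {f₁ f₂ f₃ : ℝ → ℂ}

/-- the width of the strip -/
noncomputable def Wd (R H c₁ c₂ c₃ : ℝ) : ℝ := R + H * (|c₁|⁻¹ + |c₂|⁻¹ + |c₃|⁻¹)

theorem q_abs {H d s : ℝ} (hd : d ≠ 0) (h : q H (d * s) ≠ 0) : |s| ≤ H * |d|⁻¹ := by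
  obtain ⟨h1, h2⟩ := q_ne h
  have h3 : |d| * |s| ≤ H := by rw [← abs_mul, abs_of_nonneg h1]; exact h2
  have h4 : 0 < |d| := abs_pos.2 hd
  rw [← div_eq_mul_inv, le_div_iff₀ h4, mul_comm]
  exact h3

/-- outside the strip the triangular integrand vanishes -/
theorem Tri_supp (n₁ : c₁ ≠ 0) (n₂ : c₂ ≠ 0) (n₃ : c₃ ≠ 0) {y : ℝ × ℝ}
    (hy : y ∉ St (Wd R H c₁ c₂ c₃)) (x : ℝ × ℝ × ℝ) :
    Tri ε R H c₁ c₂ c₃ G₁ G₂ G₃ f₁ f₂ f₃ y x = 0 := by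
  by_contra hne
  apply hy
  unfold Tri F3 F1 F2 at hne
  simp only [mul_eq_zero, not_or] at hne
  obtain ⟨⟨⟨⟨-, -, ha, hb⟩, ⟨-, -, -, hc⟩⟩, -⟩, hu⟩ := hne
  have ha' : |x.1| ≤ H * |c₁|⁻¹ := by
    have := q_abs (neg_ne_zero.2 n₁) ha
    rwa [abs_neg] at this
  have hb' := q_abs n₂ hb
  have hc' := q_abs n₃ hc
  have hu' : |x.1 + x.2.1 + x.2.2| < R := by
    by_contra hcon
    apply hu
    unfold uu
    rw [indicator_of_notMem]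
    exact fun h => hcon h.2
  show |y.1 + y.2| < Wd R H c₁ c₂ c₃
  unfold Wd
  have e : y.1 + y.2 = (x.1 + x.2.1 + x.2.2) - x.1 + (y.1 - x.2.1) + (y.2 - x.2.2) := by ring
  have e1 : |y.1 + y.2| ≤ |x.1 + x.2.1 + x.2.2| + |x.1| + |y.1 - x.2.1| + |y.2 - x.2.2| := by
    rw [e]
    refine (abs_add_le _ _).trans ?_
    gcongr
    refine (abs_add_le _ _).trans ?_
    gcongr
    exact abs_sub _ _
  calc |y.1 + y.2| ≤ |x.1 + x.2.1 + x.2.2| + |x.1| + |y.1 - x.2.1| + |y.2 - x.2.2| := e1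
    _ < R + H * |c₁|⁻¹ + H * |c₂|⁻¹ + H * |c₃|⁻¹ := by linarith
    _ = _ := by ring

/-- a bounded function with two cut-offs is in `L³` -/
theorem memLp_cut {g : ℝ × ℝ → ℂ} (hg : Measurable g) {H d₁ d₂ e₁ e₂ : ℝ} (hd₁ : d₁ ≠ 0)
    (hd₂ : d₂ ≠ 0) {B : ℝ}
    (h : ∀ p, ‖g p‖ₑ ≤ ENNReal.ofReal B * (qE H (d₁ * p.1 + e₁) * qE H (d₂ * p.2 + e₂))) :
    MemLp g 3 volume := by
  refine ⟨hg.aestronglyMeasurable, ?_⟩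
  rw [eLpNorm_lt_top_iff_lintegral_rpow_enorm_lt_top (by norm_num) (by norm_num)]
  have e3 : (3 : ℝ≥0∞).toReal = 3 := by norm_num
  rw [e3]
  have hq : ∀ x, qE H x ^ (3 : ℝ) = qE H x := by
    intro x
    unfold qE
    by_cases hx : x ∈ Icc (0 : ℝ) H
    · simp [hx]
    · simp [hx]
  have m1 : Measurable fun x : ℝ => qE H (d₁ * x + e₁) := (qE_meas H).comp (by fun_prop)
  have m2 : Measurable fun x : ℝ => qE H (d₂ * x + e₂) := (qE_meas H).comp (by fun_prop)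
  have m12 : Measurable fun p : ℝ × ℝ => qE H (d₁ * p.1 + e₁) * qE H (d₂ * p.2 + e₂) :=
    (m1.comp measurable_fst).mul (m2.comp measurable_snd)
  calc ∫⁻ p, ‖g p‖ₑ ^ (3 : ℝ)
      ≤ ∫⁻ p : ℝ × ℝ, ENNReal.ofReal B ^ (3 : ℝ) *
        (qE H (d₁ * p.1 + e₁) * qE H (d₂ * p.2 + e₂)) := by
        refine lintegral_mono fun p => ?_
        refine (ENNReal.rpow_le_rpow (h p) (by norm_num)).trans (le_of_eq ?_)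
        rw [ENNReal.mul_rpow_of_nonneg _ _ (by norm_num), ENNReal.mul_rpow_of_nonneg _ _
          (by norm_num), hq, hq]
    _ = ENNReal.ofReal B ^ (3 : ℝ) * ((ENNReal.ofReal |d₁|⁻¹ * ENNReal.ofReal H) *
        (ENNReal.ofReal |d₂|⁻¹ * ENNReal.ofReal H)) := by
        rw [lintegral_const_mul _ m12, Measure.volume_eq_prod, lintegral_prod_mul (f := fun x => qE H (d₁ * x + e₁))
          (g := fun x => qE H (d₂ * x + e₂)) m1.aemeasurable m2.aemeasurable,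
          qE_int H hd₁, qE_int H hd₂]
    _ < ⊤ := by
        refine ENNReal.mul_lt_top (ENNReal.rpow_lt_top_of_nonneg (by norm_num)
          ENNReal.ofReal_ne_top) (ENNReal.mul_lt_top (ENNReal.mul_lt_top ENNReal.ofReal_lt_top
          ENNReal.ofReal_lt_top) (ENNReal.mul_lt_top ENNReal.ofReal_lt_top ENNReal.ofReal_lt_top))

section
variable (H c₁ c₂ c₃)

theorem F3_meas (g₃ : One G₃) (h₃ : Nice f₃) :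
    Measurable fun z : (ℝ × ℝ) × (ℝ × ℝ) => F3 H c₁ c₂ c₃ G₃ f₃ z.1 z.2 := by
  have a1 : Measurable fun z : (ℝ × ℝ) × (ℝ × ℝ) => f₃ ((c₁ - c₃) * z.2.1 + (c₂ - c₃) * z.2.2) :=
    h₃.meas.comp (by fun_prop)
  have a2 : Measurable fun z : (ℝ × ℝ) × (ℝ × ℝ) =>
      G₃ (c₁ * z.2.1 + c₂ * z.2.2 + c₃ * z.1.2, -c₁ * z.2.1, c₂ * (z.1.1 - z.2.2)) :=
    g₃.meas.comp (by fun_prop)
  have a3 : Measurable fun z : (ℝ × ℝ) × (ℝ × ℝ) => q H (-c₁ * z.2.1) :=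
    (q_meas H).comp (by fun_prop)
  have a4 : Measurable fun z : (ℝ × ℝ) × (ℝ × ℝ) => q H (c₂ * (z.1.1 - z.2.2)) :=
    (q_meas H).comp (by fun_prop)
  exact a1.mul (a2.mul (a3.mul a4))

theorem F1_meas (g₁ : One G₁) (h₁ : Nice f₁) :
    Measurable fun z : (ℝ × ℝ) × (ℝ × ℝ) => F1 H c₁ c₂ c₃ G₁ f₁ z.1 z.2 := by
  have a1 : Measurable fun z : (ℝ × ℝ) × (ℝ × ℝ) => f₁ ((c₂ - c₁) * z.2.1 + (c₃ - c₁) * z.2.2) :=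
    h₁.meas.comp (by fun_prop)
  have a2 : Measurable fun z : (ℝ × ℝ) × (ℝ × ℝ) =>
      G₁ (c₂ * z.2.1 + c₃ * z.2.2, c₂ * (z.1.1 - z.2.1), c₃ * (z.1.2 - z.2.2)) :=
    g₁.meas.comp (by fun_prop)
  have a3 : Measurable fun z : (ℝ × ℝ) × (ℝ × ℝ) => q H (c₂ * (z.1.1 - z.2.1)) :=
    (q_meas H).comp (by fun_prop)
  have a4 : Measurable fun z : (ℝ × ℝ) × (ℝ × ℝ) => q H (c₃ * (z.1.2 - z.2.2)) :=
    (q_meas H).comp (by fun_prop)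
  exact a1.mul (a2.mul (a3.mul a4))

theorem F2_meas (g₂ : One G₂) (h₂ : Nice f₂) :
    Measurable fun z : (ℝ × ℝ) × (ℝ × ℝ) => F2 H c₁ c₂ c₃ G₂ f₂ z.1 z.2 := by
  have a1 : Measurable fun z : (ℝ × ℝ) × (ℝ × ℝ) => f₂ ((c₁ - c₂) * z.2.2 + (c₃ - c₂) * z.2.1) :=
    h₂.meas.comp (by fun_prop)
  have a2 : Measurable fun z : (ℝ × ℝ) × (ℝ × ℝ) =>
      G₂ (c₁ * z.2.2 + c₂ * z.1.1 + c₃ * z.2.1, -c₁ * z.2.2, c₃ * (z.1.2 - z.2.1)) :=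
    g₂.meas.comp (by fun_prop)
  have a3 : Measurable fun z : (ℝ × ℝ) × (ℝ × ℝ) => q H (-c₁ * z.2.2) :=
    (q_meas H).comp (by fun_prop)
  have a4 : Measurable fun z : (ℝ × ℝ) × (ℝ × ℝ) => q H (c₃ * (z.1.2 - z.2.1)) :=
    (q_meas H).comp (by fun_prop)
  exact a1.mul (a2.mul (a3.mul a4))

end

/-- the common size bound -/
theorem size {u v w₁ w₂ : ℂ} (hv : ‖v‖ ≤ 1) : ‖u * (v * (w₁ * w₂))‖ₑ ≤ ‖u‖ₑ * (‖w₁‖ₑ * ‖w₂‖ₑ) := by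
  rw [enorm_mul, enorm_mul, enorm_mul]
  have : ‖v‖ₑ ≤ 1 := by
    rw [← ofReal_norm, ← ENNReal.ofReal_one]; exact ENNReal.ofReal_le_ofReal hv
  calc ‖u‖ₑ * (‖v‖ₑ * (‖w₁‖ₑ * ‖w₂‖ₑ)) ≤ ‖u‖ₑ * (1 * (‖w₁‖ₑ * ‖w₂‖ₑ)) := by gcongr
    _ = _ := by rw [one_mul]

theorem F3_size (g₃ : One G₃) (y p : ℝ × ℝ) : ‖F3 H c₁ c₂ c₃ G₃ f₃ y p‖ₑ ≤
    ‖f₃ ((c₁ - c₃) * p.1 + (c₂ - c₃) * p.2)‖ₑ * (qE H (-c₁ * p.1) * qE H (c₂ * (y.1 - p.2))) := by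
  rw [← q_norm, ← q_norm]
  exact size (g₃.le _)

theorem F1_size (g₁ : One G₁) (y p : ℝ × ℝ) : ‖F1 H c₁ c₂ c₃ G₁ f₁ y p‖ₑ ≤
    ‖f₁ ((c₂ - c₁) * p.1 + (c₃ - c₁) * p.2)‖ₑ *
      (qE H (c₂ * (y.1 - p.1)) * qE H (c₃ * (y.2 - p.2))) := by
  rw [← q_norm, ← q_norm]
  exact size (g₁.le _)

theorem F2_size (g₂ : One G₂) (y p : ℝ × ℝ) : ‖F2 H c₁ c₂ c₃ G₂ f₂ y p‖ₑ ≤
    ‖f₂ ((c₁ - c₂) * p.2 + (c₃ - c₂) * p.1)‖ₑ * (qE H (-c₁ * p.2) * qE H (c₃ * (y.2 - p.1))) := by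
  rw [← q_norm, ← q_norm]
  exact size (g₂.le _)

theorem nice_enorm {f : ℝ → ℂ} {B : ℝ} (hB : ∀ x, ‖f x‖ ≤ B) (x : ℝ) :
    ‖f x‖ₑ ≤ ENNReal.ofReal B := by
  rw [← ofReal_norm]; exact ENNReal.ofReal_le_ofReal (hB x)

theorem F3_memLp (n₁ : c₁ ≠ 0) (n₂ : c₂ ≠ 0) (g₃ : One G₃) (h₃ : Nice f₃) (y : ℝ × ℝ) :
    MemLp (F3 H c₁ c₂ c₃ G₃ f₃ y) 3 volume := by
  obtain ⟨B, hB⟩ := h₃.bdd
  refine memLp_cut (H := H) (d₁ := -c₁) (d₂ := -c₂) (e₁ := 0) (e₂ := c₂ * y.1) (B := B)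
    ((F3_meas H c₁ c₂ c₃ g₃ h₃).comp measurable_prodMk_left) (neg_ne_zero.2 n₁)
    (neg_ne_zero.2 n₂) fun p => (F3_size g₃ y p).trans ?_
  have e : c₂ * (y.1 - p.2) = -c₂ * p.2 + c₂ * y.1 := by ring
  rw [e, add_zero]
  gcongr
  exact nice_enorm hB _

theorem F1_memLp (n₂ : c₂ ≠ 0) (n₃ : c₃ ≠ 0) (g₁ : One G₁) (h₁ : Nice f₁) (y : ℝ × ℝ) :
    MemLp (F1 H c₁ c₂ c₃ G₁ f₁ y) 3 volume := by
  obtain ⟨B, hB⟩ := h₁.bdd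
  refine memLp_cut (H := H) (d₁ := -c₂) (d₂ := -c₃) (e₁ := c₂ * y.1) (e₂ := c₃ * y.2) (B := B)
    ((F1_meas H c₁ c₂ c₃ g₁ h₁).comp measurable_prodMk_left) (neg_ne_zero.2 n₂)
    (neg_ne_zero.2 n₃) fun p => (F1_size g₁ y p).trans ?_
  have e : c₂ * (y.1 - p.1) = -c₂ * p.1 + c₂ * y.1 := by ring
  have e' : c₃ * (y.2 - p.2) = -c₃ * p.2 + c₃ * y.2 := by ring
  rw [e, e']
  gcongr
  exact nice_enorm hB _

theorem F2_memLp (n₁ : c₁ ≠ 0) (n₃ : c₃ ≠ 0) (g₂ : One G₂) (h₂ : Nice f₂) (y : ℝ × ℝ) :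
    MemLp (F2 H c₁ c₂ c₃ G₂ f₂ y) 3 volume := by
  obtain ⟨B, hB⟩ := h₂.bdd
  refine memLp_cut (H := H) (d₁ := -c₃) (d₂ := -c₁) (e₁ := c₃ * y.2) (e₂ := 0) (B := B)
    ((F2_meas H c₁ c₂ c₃ g₂ h₂).comp measurable_prodMk_left) (neg_ne_zero.2 n₃)
    (neg_ne_zero.2 n₁) fun p => (F2_size g₂ y p).trans ?_
  have e : c₃ * (y.2 - p.1) = -c₃ * p.1 + c₃ * y.2 := by ring
  rw [e, add_zero, mul_comm (qE H (-c₁ * p.2))]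
  gcongr
  exact nice_enorm hB _

/-- the cube of the `L³` norm -/
noncomputable def mm (F : ℝ × ℝ → ℂ) : ℝ≥0∞ := ∫⁻ p, ‖F p‖ₑ ^ (3 : ℝ)

theorem elp_mm (F : ℝ × ℝ → ℂ) : eLpNorm F 3 volume = mm F ^ ((1 : ℝ) / 3) := by
  rw [eLpNorm_eq_lintegral_rpow_enorm_toReal (by norm_num) (by norm_num)]
  have e3 : (3 : ℝ≥0∞).toReal = 3 := by norm_num
  rw [e3]
  rfl

/-- one triangular form -/
theorem tri_bound : ∃ C : ℝ, 0 ≤ C ∧ ∀ (H c₁ c₂ c₃ : ℝ) (G₁ G₂ G₃ : ℝ × ℝ × ℝ → ℂ)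
    (f₁ f₂ f₃ : ℝ → ℂ), c₁ ≠ 0 → c₂ ≠ 0 → c₃ ≠ 0 → One G₁ → One G₂ → One G₃ →
    Nice f₁ → Nice f₂ → Nice f₃ → ∀ ε R : ℝ, 0 < ε → ε < R → ∀ y : ℝ × ℝ,
      ‖∫ x : ℝ × ℝ × ℝ, Tri ε R H c₁ c₂ c₃ G₁ G₂ G₃ f₁ f₂ f₃ y x‖ₑ ≤
        ENNReal.ofReal C * (mm (F3 H c₁ c₂ c₃ G₃ f₃ y) ^ ((1 : ℝ) / 3) *
          (mm (F1 H c₁ c₂ c₃ G₁ f₁ y) ^ ((1 : ℝ) / 3) *
            mm (F2 H c₁ c₂ c₃ G₂ f₂ y) ^ ((1 : ℝ) / 3))) := by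
  obtain ⟨C, hC⟩ := Vale.Agent.Results.P075.TriangularHilbertReal.result
  refine ⟨|C|, abs_nonneg _, fun H c₁ c₂ c₃ G₁ G₂ G₃ f₁ f₂ f₃ n₁ n₂ n₃ g₁ g₂ g₃ h₁ h₂ h₃
    ε R hε hR y => ?_⟩
  have k3 := F3_memLp (H := H) (c₃ := c₃) n₁ n₂ g₃ h₃ y
  have k1 := F1_memLp (H := H) (c₁ := c₁) n₂ n₃ g₁ h₁ y
  have k2 := F2_memLp (H := H) (c₂ := c₂) n₁ n₃ g₂ h₂ y
  have key := (hC _ _ _ k3 k1 k2 ε R hε hR).2
  have hS : MeasurableSet {x : ℝ × ℝ × ℝ | ε < |x.1 + x.2.1 + x.2.2| ∧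
      |x.1 + x.2.1 + x.2.2| < R} := by
    have : Measurable fun x : ℝ × ℝ × ℝ => x.1 + x.2.1 + x.2.2 := by fun_prop
    exact this (setA_meas ε R)
  rw [← integral_indicator hS] at key
  have e : (fun x : ℝ × ℝ × ℝ => Tri ε R H c₁ c₂ c₃ G₁ G₂ G₃ f₁ f₂ f₃ y x)
      = {x : ℝ × ℝ × ℝ | ε < |x.1 + x.2.1 + x.2.2| ∧ |x.1 + x.2.1 + x.2.2| < R}.indicator
        fun x => F3 H c₁ c₂ c₃ G₃ f₃ y (x.1, x.2.1) * F1 H c₁ c₂ c₃ G₁ f₁ y (x.2.1, x.2.2) *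
          F2 H c₁ c₂ c₃ G₂ f₂ y (x.2.2, x.1) / ((x.1 + x.2.1 + x.2.2 : ℝ) : ℂ) := by
    funext x
    unfold Tri uu
    by_cases hx : ε < |x.1 + x.2.1 + x.2.2| ∧ |x.1 + x.2.1 + x.2.2| < R
    · rw [indicator_of_mem (show x.1 + x.2.1 + x.2.2 ∈ {t : ℝ | ε < |t| ∧ |t| < R} from hx),
        indicator_of_mem (show x ∈ {x : ℝ × ℝ × ℝ | ε < |x.1 + x.2.1 + x.2.2| ∧
          |x.1 + x.2.1 + x.2.2| < R} from hx), div_eq_mul_inv]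
    · rw [indicator_of_notMem (show x.1 + x.2.1 + x.2.2 ∉ {t : ℝ | ε < |t| ∧ |t| < R} from hx),
        indicator_of_notMem (show x ∉ {x : ℝ × ℝ × ℝ | ε < |x.1 + x.2.1 + x.2.2| ∧
          |x.1 + x.2.1 + x.2.2| < R} from hx), mul_zero]
  rw [e, ← ofReal_norm, ← elp_mm, ← elp_mm, ← elp_mm, ← ENNReal.ofReal_toReal k3.2.ne,
    ← ENNReal.ofReal_toReal k1.2.ne, ← ENNReal.ofReal_toReal k2.2.ne,
    ← ENNReal.ofReal_mul ENNReal.toReal_nonneg, ← ENNReal.ofReal_mul ENNReal.toReal_nonneg,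
    ← ENNReal.ofReal_mul (abs_nonneg _)]
  refine ENNReal.ofReal_le_ofReal (key.trans ?_)
  rw [mul_assoc]
  exact mul_le_mul_of_nonneg_right (le_abs_self C) (by positivity)

/-- Hoelder on a set -/
theorem holderS {C : ℝ≥0∞} {X : ℝ × ℝ → ℂ} {m₁ m₂ m₃ : ℝ × ℝ → ℝ≥0∞} (h₁ : Measurable m₁)
    (h₂ : Measurable m₂) (h₃ : Measurable m₃) {S : Set (ℝ × ℝ)} (hS : MeasurableSet S)
    (h0 : ∀ y ∉ S, X y = 0)
    (h : ∀ y, ‖X y‖ₑ ≤ C * (m₁ y ^ ((1 : ℝ) / 3) * (m₂ y ^ ((1 : ℝ) / 3) *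
      m₃ y ^ ((1 : ℝ) / 3)))) :
    ‖∫ y, X y‖ₑ ≤ C * ((∫⁻ y, S.indicator 1 y * m₁ y) ^ ((1 : ℝ) / 3) *
      ((∫⁻ y, S.indicator 1 y * m₂ y) ^ ((1 : ℝ) / 3) *
        (∫⁻ y, S.indicator 1 y * m₃ y) ^ ((1 : ℝ) / 3))) := by
  have hSm : Measurable (S.indicator (1 : ℝ × ℝ → ℝ≥0∞)) := measurable_one.indicator hS
  have i₁ := hSm.mul h₁
  have i₂ := hSm.mul h₂
  have i₃ := hSm.mul h₃
  set M : Fin 3 → ℝ × ℝ → ℝ≥0∞ := ![fun y => S.indicator 1 y * m₁ y,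
    fun y => S.indicator 1 y * m₂ y, fun y => S.indicator 1 y * m₃ y] with hM
  have key := ENNReal.lintegral_prod_norm_pow_le (μ := (volume : Measure (ℝ × ℝ)))
    (Finset.univ : Finset (Fin 3)) (f := M) (p := fun _ => (1 : ℝ) / 3) (fun i _ => by
      fin_cases i
      · exact i₁.aemeasurable
      · exact i₂.aemeasurable
      · exact i₃.aemeasurable) (by simp) (fun _ _ => by norm_num)
  simp only [Fin.prod_univ_three] at key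
  have k0 : M 0 = fun y => S.indicator 1 y * m₁ y := rfl
  have k1 : M 1 = fun y => S.indicator 1 y * m₂ y := rfl
  have k2 : M 2 = fun y => S.indicator 1 y * m₃ y := rfl
  rw [k0, k1, k2] at key
  have j₁ : Measurable fun y => (S.indicator 1 y * m₁ y) ^ ((1 : ℝ) / 3) := i₁.pow_const _
  have j₂ : Measurable fun y => (S.indicator 1 y * m₂ y) ^ ((1 : ℝ) / 3) := i₂.pow_const _
  have j₃ : Measurable fun y => (S.indicator 1 y * m₃ y) ^ ((1 : ℝ) / 3) := i₃.pow_const _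
  calc ‖∫ y, X y‖ₑ ≤ ∫⁻ y, ‖X y‖ₑ := enorm_integral_le_lintegral_enorm _
    _ ≤ ∫⁻ y, C * ((S.indicator 1 y * m₁ y) ^ ((1 : ℝ) / 3) *
        (S.indicator 1 y * m₂ y) ^ ((1 : ℝ) / 3) * (S.indicator 1 y * m₃ y) ^ ((1 : ℝ) / 3)) := by
        refine lintegral_mono fun y => ?_
        by_cases hy : y ∈ S
        · rw [indicator_of_mem hy, Pi.one_apply, one_mul, one_mul, one_mul, mul_assoc (_ ^ _)]
          exact h y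
        · rw [h0 y hy, enorm_zero]; exact bot_le
    _ = C * ∫⁻ y, ((S.indicator 1 y * m₁ y) ^ ((1 : ℝ) / 3) *
        (S.indicator 1 y * m₂ y) ^ ((1 : ℝ) / 3) * (S.indicator 1 y * m₃ y) ^ ((1 : ℝ) / 3)) :=
        lintegral_const_mul _ ((j₁.mul j₂).mul j₃)
    _ ≤ C * ((∫⁻ y, S.indicator 1 y * m₁ y) ^ ((1 : ℝ) / 3) *
      (∫⁻ y, S.indicator 1 y * m₂ y) ^ ((1 : ℝ) / 3) *
        (∫⁻ y, S.indicator 1 y * m₃ y) ^ ((1 : ℝ) / 3)) := by gcongr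
    _ = _ := by rw [mul_assoc (_ ^ _)]

/-- the cube of the norm of an input -/
noncomputable def nn (f : ℝ → ℂ) : ℝ≥0∞ := ∫⁻ x, ‖f x‖ₑ ^ (3 : ℝ)

theorem elp_nn (f : ℝ → ℂ) : eLpNorm f 3 volume = nn f ^ ((1 : ℝ) / 3) := by
  rw [eLpNorm_eq_lintegral_rpow_enorm_toReal (by norm_num) (by norm_num)]
  have e3 : (3 : ℝ≥0∞).toReal = 3 := by norm_num
  rw [e3]
  rfl

theorem qE_cube (H x : ℝ) : qE H x ^ (3 : ℝ) = qE H x := by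
  unfold qE
  by_cases hx : x ∈ Icc (0 : ℝ) H
  · simp [hx]
  · simp [hx]

theorem cube_le {X u a b : ℝ≥0∞} {H x y : ℝ} (ha : a = qE H x) (hb : b = qE H y)
    (h : X ≤ u * (a * b)) : X ^ (3 : ℝ) ≤ u ^ (3 : ℝ) * (a * b) := by
  refine (ENNReal.rpow_le_rpow h (by norm_num)).trans (le_of_eq ?_)
  rw [ENNReal.mul_rpow_of_nonneg _ _ (by norm_num), ENNReal.mul_rpow_of_nonneg _ _
    (by norm_num), ha, hb, qE_cube, qE_cube]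

theorem cube_meas {f : ℝ → ℂ} (h : Nice f) : Measurable fun x => ‖f x‖ₑ ^ (3 : ℝ) :=
  h.meas.enorm.pow_const _

theorem m3_int (n₁ : c₁ ≠ 0) (n₂ : c₂ ≠ 0) (n : c₂ ≠ c₃) (g₃ : One G₃) (h₃ : Nice f₃) (W : ℝ) :
    ∫⁻ y : ℝ × ℝ, (St W).indicator 1 y * mm (F3 H c₁ c₂ c₃ G₃ f₃ y) ≤
      ENNReal.ofReal (2 * W) * ((ENNReal.ofReal |c₁|⁻¹ * ENNReal.ofReal H) *
        (ENNReal.ofReal |c₂|⁻¹ * ENNReal.ofReal H) * (ENNReal.ofReal |c₂ - c₃|⁻¹ * nn f₃)) := by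
  set K : ℝ → ℝ≥0∞ := fun b => ∫⁻ p : ℝ × ℝ, ‖f₃ ((c₁ - c₃) * p.1 + (c₂ - c₃) * p.2)‖ₑ ^ (3 : ℝ) *
    (qE H (-c₁ * p.1) * qE H (c₂ * (b - p.2))) with hK
  have hKm : Measurable K :=
    (four_meas (cube_meas h₃) H (-c₁) c₂ (c₁ - c₃) (c₂ - c₃)).lintegral_prod_right'
  have e4 := four (cube_meas h₃) H (c₁ - c₃) (neg_ne_zero.2 n₁) n₂ (sub_ne_zero.2 n)
  rw [abs_neg] at e4
  have e5 := stripB W hKm
  calc ∫⁻ y : ℝ × ℝ, (St W).indicator 1 y * mm (F3 H c₁ c₂ c₃ G₃ f₃ y)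
      ≤ ∫⁻ y : ℝ × ℝ, (St W).indicator 1 y * K y.1 := by
        refine lintegral_mono fun y => ?_
        gcongr
        refine lintegral_mono fun p => ?_
        exact cube_le rfl rfl (F3_size g₃ y p)
    _ = ENNReal.ofReal (2 * W) * ∫⁻ b, K b := e5
    _ = _ := by rw [hK, e4]; rfl

theorem m2_int (n₁ : c₁ ≠ 0) (n₃ : c₃ ≠ 0) (n : c₂ ≠ c₃) (g₂ : One G₂) (h₂ : Nice f₂) (W : ℝ) :
    ∫⁻ y : ℝ × ℝ, (St W).indicator 1 y * mm (F2 H c₁ c₂ c₃ G₂ f₂ y) ≤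
      ENNReal.ofReal (2 * W) * ((ENNReal.ofReal |c₁|⁻¹ * ENNReal.ofReal H) *
        (ENNReal.ofReal |c₃|⁻¹ * ENNReal.ofReal H) * (ENNReal.ofReal |c₂ - c₃|⁻¹ * nn f₂)) := by
  set K : ℝ → ℝ≥0∞ := fun b => ∫⁻ p : ℝ × ℝ, ‖f₂ ((c₁ - c₂) * p.1 + (c₃ - c₂) * p.2)‖ₑ ^ (3 : ℝ) *
    (qE H (-c₁ * p.1) * qE H (c₃ * (b - p.2))) with hK
  have hKm : Measurable K :=
    (four_meas (cube_meas h₂) H (-c₁) c₃ (c₁ - c₂) (c₃ - c₂)).lintegral_prod_right'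
  have e4 := four (cube_meas h₂) H (c₁ - c₂) (neg_ne_zero.2 n₁) n₃ (sub_ne_zero.2 n.symm)
  rw [abs_neg, abs_sub_comm c₃ c₂] at e4
  have e5 := stripG W hKm
  calc ∫⁻ y : ℝ × ℝ, (St W).indicator 1 y * mm (F2 H c₁ c₂ c₃ G₂ f₂ y)
      ≤ ∫⁻ y : ℝ × ℝ, (St W).indicator 1 y * K y.2 := by
        refine lintegral_mono fun y => ?_
        gcongr
        have hsw : mm (F2 H c₁ c₂ c₃ G₂ f₂ y)
            = ∫⁻ p : ℝ × ℝ, ‖F2 H c₁ c₂ c₃ G₂ f₂ y p.swap‖ₑ ^ (3 : ℝ) := by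
          unfold mm
          rw [Measure.volume_eq_prod]
          exact (lintegral_prod_swap _).symm
        rw [hsw]
        refine lintegral_mono fun p => ?_
        exact cube_le rfl rfl (F2_size g₂ y p.swap)
    _ = ENNReal.ofReal (2 * W) * ∫⁻ b, K b := e5
    _ = _ := by rw [hK, e4]; rfl

theorem m1_int (n₂ : c₂ ≠ 0) (n₃ : c₃ ≠ 0) (n : c₂ ≠ c₃) (g₁ : One G₁) (W : ℝ)
    (h₁ : Nice f₁) :
    ∫⁻ y : ℝ × ℝ, (St W).indicator 1 y * mm (F1 H c₁ c₂ c₃ G₁ f₁ y) ≤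
      ENNReal.ofReal (2 * W) * ((ENNReal.ofReal |c₂|⁻¹ * ENNReal.ofReal H) *
        (ENNReal.ofReal |c₃|⁻¹ * ENNReal.ofReal H) * (ENNReal.ofReal |c₂ - c₃|⁻¹ * nn f₁)) := by
  have e4 := diag (cube_meas h₁) H W (e₁ := c₂ - c₁) (e₂ := c₃ - c₁) n₂ n₃ (fun h => n (by linarith))
  have e6 : |c₃ - c₁ - (c₂ - c₁)| = |c₂ - c₃| := by
    rw [abs_sub_comm c₂ c₃]; congr 1; ring
  rw [e6] at e4
  calc ∫⁻ y : ℝ × ℝ, (St W).indicator 1 y * mm (F1 H c₁ c₂ c₃ G₁ f₁ y)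
      ≤ ∫⁻ y : ℝ × ℝ, (St W).indicator 1 y * ∫⁻ p : ℝ × ℝ,
        ‖f₁ ((c₂ - c₁) * p.1 + (c₃ - c₁) * p.2)‖ₑ ^ (3 : ℝ) *
        (qE H (c₂ * (y.1 - p.1)) * qE H (c₃ * (y.2 - p.2))) := by
        refine lintegral_mono fun y => ?_
        gcongr
        refine lintegral_mono fun p => ?_
        exact cube_le rfl rfl (F1_size g₁ y p)
    _ = _ := by
        rw [e4]
        unfold nn
        ring

/-- the arithmetic of the three integrals -/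
theorem arith {a b c d w h : ℝ} (ha : 0 < a) (hb : 0 < b) (hc : 0 < c) (hd : 0 < d) (hw : 0 ≤ w)
    (hh : 0 ≤ h) {x y z : ℝ≥0∞} :
    (ENNReal.ofReal w * ((ENNReal.ofReal a⁻¹ * ENNReal.ofReal h) *
      (ENNReal.ofReal b⁻¹ * ENNReal.ofReal h) * (ENNReal.ofReal d⁻¹ * x))) ^ ((1 : ℝ) / 3) *
    ((ENNReal.ofReal w * ((ENNReal.ofReal b⁻¹ * ENNReal.ofReal h) *
      (ENNReal.ofReal c⁻¹ * ENNReal.ofReal h) * (ENNReal.ofReal d⁻¹ * y))) ^ ((1 : ℝ) / 3) *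
    (ENNReal.ofReal w * ((ENNReal.ofReal a⁻¹ * ENNReal.ofReal h) *
      (ENNReal.ofReal c⁻¹ * ENNReal.ofReal h) * (ENNReal.ofReal d⁻¹ * z))) ^ ((1 : ℝ) / 3)) =
    ENNReal.ofReal (w * h ^ 2 * d⁻¹ * ((a * b * c) ^ ((2 : ℝ) / 3))⁻¹) *
      (x ^ ((1 : ℝ) / 3) * (y ^ ((1 : ℝ) / 3) * z ^ ((1 : ℝ) / 3))) := by
  have h3 : (0 : ℝ) ≤ (1 : ℝ) / 3 := by norm_num
  have key : ∀ {u v : ℝ} (t : ℝ≥0∞), 0 ≤ u → 0 ≤ v → (ENNReal.ofReal w * ((ENNReal.ofReal u *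
      ENNReal.ofReal h) * (ENNReal.ofReal v * ENNReal.ofReal h) * (ENNReal.ofReal d⁻¹ * t)))
      ^ ((1 : ℝ) / 3) = ENNReal.ofReal ((w * (u * h * (v * h) * d⁻¹)) ^ ((1 : ℝ) / 3)) *
        t ^ ((1 : ℝ) / 3) := by
    intro u v t hu hv
    have e : ENNReal.ofReal w * ((ENNReal.ofReal u *
      ENNReal.ofReal h) * (ENNReal.ofReal v * ENNReal.ofReal h) * (ENNReal.ofReal d⁻¹ * t))
      = ENNReal.ofReal (w * (u * h * (v * h) * d⁻¹)) * t := by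
      rw [ENNReal.ofReal_mul hw, ENNReal.ofReal_mul (by positivity),
        ENNReal.ofReal_mul (by positivity), ENNReal.ofReal_mul hu, ENNReal.ofReal_mul hv]
      ring
    rw [e, ENNReal.mul_rpow_of_nonneg _ _ h3, ENNReal.ofReal_rpow_of_nonneg (by positivity) h3]
  rw [key x (by positivity) (by positivity), key y (by positivity) (by positivity),
    key z (by positivity) (by positivity)]
  have e2 : w * h ^ 2 * d⁻¹ * ((a * b * c) ^ ((2 : ℝ) / 3))⁻¹ =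
      (w * (a⁻¹ * h * (b⁻¹ * h) * d⁻¹)) ^ ((1 : ℝ) / 3) *
        ((w * (b⁻¹ * h * (c⁻¹ * h) * d⁻¹)) ^ ((1 : ℝ) / 3) *
          (w * (a⁻¹ * h * (c⁻¹ * h) * d⁻¹)) ^ ((1 : ℝ) / 3)) := by
    rw [← Real.mul_rpow (by positivity) (by positivity),
      ← Real.mul_rpow (by positivity) (by positivity)]
    have e3 : w * (a⁻¹ * h * (b⁻¹ * h) * d⁻¹) * (w * (b⁻¹ * h * (c⁻¹ * h) * d⁻¹) *
        (w * (a⁻¹ * h * (c⁻¹ * h) * d⁻¹)))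
        = (w * h ^ 2 * d⁻¹) ^ (3 : ℝ) * ((a * b * c) ^ (2 : ℝ))⁻¹ := by
      rw [show (3 : ℝ) = ((3 : ℕ) : ℝ) by norm_num, show (2 : ℝ) = ((2 : ℕ) : ℝ) by norm_num,
        Real.rpow_natCast, Real.rpow_natCast]
      field_simp
    have e4 : ((w * h ^ 2 * d⁻¹) ^ (3 : ℝ)) ^ ((1 : ℝ) / 3) = w * h ^ 2 * d⁻¹ := by
      rw [← Real.rpow_mul (by positivity)]; norm_num
    have e5 : (((a * b * c) ^ (2 : ℝ))⁻¹) ^ ((1 : ℝ) / 3) = ((a * b * c) ^ ((2 : ℝ) / 3))⁻¹ := by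
      rw [Real.inv_rpow (by positivity), ← Real.rpow_mul (by positivity)]; norm_num
    have e6 : ((w * h ^ 2 * d⁻¹) ^ (3 : ℝ) * ((a * b * c) ^ (2 : ℝ))⁻¹) ^ ((1 : ℝ) / 3)
        = ((w * h ^ 2 * d⁻¹) ^ (3 : ℝ)) ^ ((1 : ℝ) / 3) *
          (((a * b * c) ^ (2 : ℝ))⁻¹) ^ ((1 : ℝ) / 3) :=
      Real.mul_rpow (by positivity) (by positivity)
    rw [e3, e6, e4, e5]
  rw [e2, ENNReal.ofReal_mul (by positivity), ENNReal.ofReal_mul (by positivity)]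
  ring

/-- **the form bound** -/
theorem form : ∃ C : ℝ, 0 ≤ C ∧ ∀ (H c₁ c₂ c₃ : ℝ) (G₁ G₂ G₃ : ℝ × ℝ × ℝ → ℂ)
    (f₁ f₂ f₃ : ℝ → ℂ), 0 < H → c₁ ≠ 0 → c₂ ≠ 0 → c₃ ≠ 0 → c₂ ≠ c₃ → One G₁ → One G₂ → One G₃ →
    Nice f₁ → Nice f₂ → Nice f₃ → ∀ ε R : ℝ, 0 < ε → ε < R →
      ‖∫ p : ℝ × ℝ, dualFn H G₁ G₂ G₃ p.1 * ph ε R c₁ c₂ c₃ f₁ f₂ f₃ p.1 p.2‖ ≤
        C * |c₁ * c₂ * c₃| ^ ((1 : ℝ) / 3) * (R / H + |c₁|⁻¹ + |c₂|⁻¹ + |c₃|⁻¹) *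
          ((eLpNorm f₁ 3 volume).toReal * (eLpNorm f₂ 3 volume).toReal *
            (eLpNorm f₃ 3 volume).toReal) := by
  obtain ⟨C, hC0, hC⟩ := tri_bound
  refine ⟨2 * C, by positivity, fun H c₁ c₂ c₃ G₁ G₂ G₃ f₁ f₂ f₃ hH n₁ n₂ n₃ n g₁ g₂ g₃ h₁ h₂ h₃
    ε R hε hR => ?_⟩
  have hR0 : 0 < R := hε.trans hR
  have a₁ : 0 < |c₁| := abs_pos.2 n₁
  have a₂ : 0 < |c₂| := abs_pos.2 n₂
  have a₃ : 0 < |c₃| := abs_pos.2 n₃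
  have a₄ : 0 < |c₂ - c₃| := abs_pos.2 (sub_ne_zero.2 n)
  set W : ℝ := Wd R H c₁ c₂ c₃ with hW
  have hW0 : 0 < W := by rw [hW]; unfold Wd; positivity
  have meas : ∀ {F : (ℝ × ℝ) × (ℝ × ℝ) → ℂ}, Measurable F →
      Measurable fun y : ℝ × ℝ => mm fun p => F (y, p) := by
    intro F hF
    exact (hF.enorm.pow_const _).lintegral_prod_right'
  have k := holderS (meas (F3_meas H c₁ c₂ c₃ g₃ h₃)) (meas (F1_meas H c₁ c₂ c₃ g₁ h₁))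
    (meas (F2_meas H c₁ c₂ c₃ g₂ h₂)) (St_meas W) (C := ENNReal.ofReal C)
    (X := fun y => ∫ x : ℝ × ℝ × ℝ, Tri ε R H c₁ c₂ c₃ G₁ G₂ G₃ f₁ f₂ f₃ y x)
    (fun y hy => by
      show ∫ x : ℝ × ℝ × ℝ, Tri ε R H c₁ c₂ c₃ G₁ G₂ G₃ f₁ f₂ f₃ y x = 0
      simp only [Tri_supp (G₁ := G₁) (G₂ := G₂) (G₃ := G₃) (f₁ := f₁) (f₂ := f₂) (f₃ := f₃)
        (ε := ε) n₁ n₂ n₃ hy, integral_zero])
    (fun y => hC H c₁ c₂ c₃ G₁ G₂ G₃ f₁ f₂ f₃ n₁ n₂ n₃ g₁ g₂ g₃ h₁ h₂ h₃ ε R hε hR y)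
  have i3 := m3_int (H := H) (c₃ := c₃) n₁ n₂ n g₃ h₃ W
  have i1 := m1_int (H := H) (c₁ := c₁) n₂ n₃ n g₁ W h₁
  have i2 := m2_int (H := H) (c₂ := c₂) n₁ n₃ n g₂ h₂ W
  have l1 : (0 : ℝ) ≤ (1 : ℝ) / 3 := by norm_num
  have k2 := k.trans (mul_le_mul_right (mul_le_mul (ENNReal.rpow_le_rpow i3 l1)
    (mul_le_mul (ENNReal.rpow_le_rpow i1 l1) (ENNReal.rpow_le_rpow i2 l1) bot_le bot_le)
    bot_le bot_le) (ENNReal.ofReal C))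
  rw [arith a₁ a₂ a₃ a₄ (by positivity) hH.le, ← pair_eq hε hH n₁ n₂ n₃ n g₁ g₂ g₃ h₁ h₂ h₃,
    ← elp_nn, ← elp_nn, ← elp_nn] at k2
  have t₁ := h₁.memLp (p := 3) (by norm_num) (by norm_num)
  have t₂ := h₂.memLp (p := 3) (by norm_num) (by norm_num)
  have t₃ := h₃.memLp (p := 3) (by norm_num) (by norm_num)
  rw [← ENNReal.ofReal_toReal t₁.2.ne, ← ENNReal.ofReal_toReal t₂.2.ne,
    ← ENNReal.ofReal_toReal t₃.2.ne, ← ENNReal.ofReal_mul ENNReal.toReal_nonneg,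
    ← ENNReal.ofReal_mul ENNReal.toReal_nonneg, ← ENNReal.ofReal_mul (by positivity),
    ← ENNReal.ofReal_mul hC0, ← ofReal_norm, ENNReal.ofReal_le_ofReal_iff (by positivity)] at k2
  set N₁ := (eLpNorm f₁ 3 volume).toReal
  set N₂ := (eLpNorm f₂ 3 volume).toReal
  set N₃ := (eLpNorm f₃ 3 volume).toReal
  set P := ∫ p : ℝ × ℝ, dualFn H G₁ G₂ G₃ p.1 * ph ε R c₁ c₂ c₃ f₁ f₂ f₃ p.1 p.2
  have hj : 0 ≤ jac c₁ c₂ c₃ := by unfold jac; positivity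
  rw [norm_mul, norm_mul, Complex.norm_real, Complex.norm_real, Real.norm_of_nonneg hj,
    Real.norm_of_nonneg (by positivity)] at k2
  have hjp : 0 < jac c₁ c₂ c₃ * H ^ 3 := by unfold jac; positivity
  have k3 : ‖P‖ ≤ (jac c₁ c₂ c₃ * H ^ 3)⁻¹ * (C * (2 * W * H ^ 2 * |c₂ - c₃|⁻¹ *
      ((|c₁| * |c₂| * |c₃|) ^ ((2 : ℝ) / 3))⁻¹ * (N₃ * (N₁ * N₂)))) := by
    rw [← div_eq_inv_mul, le_div_iff₀ hjp]
    calc ‖P‖ * (jac c₁ c₂ c₃ * H ^ 3) = jac c₁ c₂ c₃ * (H ^ 3 * ‖P‖) := by ring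
      _ ≤ _ := k2
  refine k3.trans (le_of_eq ?_)
  set Pq : ℝ := |c₁| * |c₂| * |c₃| with hPq
  have hPq0 : 0 < Pq := by positivity
  have e1 : |c₁ * c₂ * c₃| = Pq := by rw [abs_mul, abs_mul]
  have e2 : Pq ^ ((1 : ℝ) / 3) = Pq * (Pq ^ ((2 : ℝ) / 3))⁻¹ := by
    rw [← Real.rpow_neg hPq0.le, ← Real.rpow_one_add' hPq0.le (by norm_num)]
    norm_num
  have e3 : (jac c₁ c₂ c₃ * H ^ 3)⁻¹ = Pq * |c₂ - c₃| * (H ^ 3)⁻¹ := by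
    unfold jac
    rw [abs_mul, hPq]
    field_simp
  have e4 : W * H⁻¹ = R / H + |c₁|⁻¹ + |c₂|⁻¹ + |c₃|⁻¹ := by
    rw [hW]; unfold Wd; field_simp; ring
  rw [e1, e2, e3, ← e4]
  field_simp

end Vale.Agent.P141.R2.H152
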