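import Vale.Agent.P141.R2.H152.Core

/-!
# From the form bound to the pairing and to the operator
-/

namespace Vale.Agent.P141.R2.H152

open MeasureTheory Set Vale.Agent.P141.H97
open scoped ENNReal

variable {ε R H α₁ α₂ α₃ c₁ c₂ c₃ : ℝ} {G₁ G₂ G₃ : ℝ × ℝ × ℝ → ℂ}

theorem dualFn_meas (g₁ : One G₁) (g₂ : One G₂) (g₃ : One G₃) :
    Measurable (dualFn H G₁ G₂ G₃) := by
  have m1 : Measurable fun z : ℝ × (ℝ × ℝ × ℝ) => G₁ (z.1 + z.2.1, z.2.2.1, z.2.2.2) :=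
    g₁.meas.comp (by fun_prop)
  have m2 : Measurable fun z : ℝ × (ℝ × ℝ × ℝ) => G₂ (z.1 + z.2.2.1, z.2.1, z.2.2.2) :=
    g₂.meas.comp (by fun_prop)
  have m3 : Measurable fun z : ℝ × (ℝ × ℝ × ℝ) => G₃ (z.1 + z.2.2.2, z.2.1, z.2.2.1) :=
    g₃.meas.comp (by fun_prop)
  have m : Measurable fun z : ℝ × (ℝ × ℝ × ℝ) => G₁ (z.1 + z.2.1, z.2.2.1, z.2.2.2) *
      G₂ (z.1 + z.2.2.1, z.2.1, z.2.2.2) * G₃ (z.1 + z.2.2.2, z.2.1, z.2.2.1) :=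
    (m1.mul m2).mul m3
  unfold dualFn
  exact measurable_const.mul (m.stronglyMeasurable.integral_prod_right'
    (ν := volume.restrict (Icc (0 : ℝ) H ×ˢ (Icc (0 : ℝ) H ×ˢ Icc (0 : ℝ) H)))).measurable

theorem dualFn_le (hH : 0 < H) (g₁ : One G₁) (g₂ : One G₂) (g₃ : One G₃) (x : ℝ) :
    ‖dualFn H G₁ G₂ G₃ x‖ ≤ 1 := by
  have hH3 : (0 : ℝ) < H ^ 3 := pow_pos hH 3
  have hv : (volume : Measure (ℝ × ℝ × ℝ)) (Icc (0 : ℝ) H ×ˢ (Icc (0 : ℝ) H ×ˢ Icc (0 : ℝ) H)) =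
      ENNReal.ofReal (H ^ 3) := by
    rw [Measure.volume_eq_prod, Measure.prod_prod, Measure.volume_eq_prod, Measure.prod_prod,
      Real.volume_Icc, sub_zero, ← ENNReal.ofReal_mul hH.le, ← ENNReal.ofReal_mul hH.le]
    congr 1
    ring
  have h1 : ‖∫ h in Icc (0 : ℝ) H ×ˢ (Icc (0 : ℝ) H ×ˢ Icc (0 : ℝ) H),
      G₁ (x + h.1, h.2.1, h.2.2) * G₂ (x + h.2.1, h.1, h.2.2) * G₃ (x + h.2.2, h.1, h.2.1)‖ ≤
      1 * (volume : Measure (ℝ × ℝ × ℝ)).real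
        (Icc (0 : ℝ) H ×ˢ (Icc (0 : ℝ) H ×ˢ Icc (0 : ℝ) H)) := by
    refine norm_setIntegral_le_of_norm_le_const ?_ fun h _ => GG_le g₁ g₂ g₃ x h
    rw [hv]
    exact ENNReal.ofReal_lt_top
  rw [Measure.real, hv, ENNReal.toReal_ofReal hH3.le, one_mul] at h1
  unfold dualFn
  rw [norm_mul, norm_inv, Complex.norm_real, Real.norm_of_nonneg hH3.le, inv_mul_le_iff₀ hH3,
    mul_one]
  exact h1

/-- the form bound -/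
def FormBd (D : ℝ → ℂ) (A ε R c₁ c₂ c₃ : ℝ) : Prop :=
  ∀ f₁ f₂ f₃ : ℝ → ℂ, Nice f₁ → Nice f₂ → Nice f₃ →
    ‖∫ p : ℝ × ℝ, D p.1 * ph ε R c₁ c₂ c₃ f₁ f₂ f₃ p.1 p.2‖ ≤
      A * ((eLpNorm f₁ 3 volume).toReal * (eLpNorm f₂ 3 volume).toReal *
        (eLpNorm f₃ 3 volume).toReal)

theorem Dph_int {D : ℝ → ℂ} (hD : Measurable D) (hD1 : ∀ x, ‖D x‖ ≤ 1) (hε : 0 < ε)
    {f₁ f₂ f₃ : ℝ → ℂ} (h₁ : Nice f₁) (h₂ : Nice f₂) (h₃ : Nice f₃) :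
    Integrable (fun p : ℝ × ℝ => D p.1 * ph ε R c₁ c₂ c₃ f₁ f₂ f₃ p.1 p.2) volume := by
  refine (ph_integrable (R := R) (c₁ := c₁) (c₂ := c₂) (c₃ := c₃) hε h₁ h₂ h₃).mono
    ((hD.comp measurable_fst).mul (ph_meas h₁.meas h₂.meas h₃.meas)).aestronglyMeasurable
    (ae_of_all _ fun p => ?_)
  rw [norm_mul]
  exact mul_le_of_le_one_left (norm_nonneg _) (hD1 _)

theorem pairing {D : ℝ → ℂ} (hD : Measurable D) (hD1 : ∀ x, ‖D x‖ ≤ 1) {A : ℝ} (hε : 0 < ε)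
    (h : FormBd D A ε R c₁ c₂ c₃) {f₁ f₂ f₃ : ℝ → ℂ} (h₁ : Nice f₁) (h₂ : Nice f₂)
    (h₃ : Nice f₃) :
    ‖∫ x, D x * TT ε R c₁ c₂ c₃ f₁ f₂ f₃ x‖ ≤
      A * ((eLpNorm f₁ 3 volume).toReal * (eLpNorm f₂ 3 volume).toReal *
        (eLpNorm f₃ 3 volume).toReal) := by
  have hI := Dph_int (R := R) (c₁ := c₁) (c₂ := c₂) (c₃ := c₃) hD hD1 hε h₁ h₂ h₃
  have e : ∫ x, D x * TT ε R c₁ c₂ c₃ f₁ f₂ f₃ x =
      ∫ p : ℝ × ℝ, D p.1 * ph ε R c₁ c₂ c₃ f₁ f₂ f₃ p.1 p.2 := by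
    rw [Measure.volume_eq_prod] at hI ⊢
    rw [integral_prod _ hI]
    congr 1
    funext x
    unfold TT
    rw [← integral_const_mul]
  rw [e]
  exact h f₁ f₂ f₃ h₁ h₂ h₃

/-- the change of variables `x ↦ x + α₁ t` -/
theorem swap_form {D : ℝ → ℂ} (hD : Measurable D) (hD1 : ∀ x, ‖D x‖ ≤ 1) (hε : 0 < ε)
    {f f₂ f₃ : ℝ → ℂ} (hf : Nice f) (h₂ : Nice f₂) (h₃ : Nice f₃) :
    ∫ x, f x * TT ε R α₁ α₂ α₃ D f₂ f₃ x =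
      ∫ p : ℝ × ℝ, D p.1 * ph ε R (-α₁) (α₂ - α₁) (α₃ - α₁) f f₂ f₃ p.1 p.2 := by
  have hV := Dph_int (R := R) (c₁ := -α₁) (c₂ := α₂ - α₁) (c₃ := α₃ - α₁) hD hD1 hε hf h₂ h₃
  have hc : ∀ p : ℝ × ℝ, (fun p : ℝ × ℝ => f p.1 * ph ε R α₁ α₂ α₃ D f₂ f₃ p.1 p.2)
      (p.1 + α₁ * p.2, p.2) = D p.1 * ph ε R (-α₁) (α₂ - α₁) (α₃ - α₁) f f₂ f₃ p.1 p.2 := by
    intro p
    simp only
    unfold ph FF
    have e1 : p.1 + α₁ * p.2 - α₁ * p.2 = p.1 := by ring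
    have e2 : p.1 + α₁ * p.2 - α₂ * p.2 = p.1 - (α₂ - α₁) * p.2 := by ring
    have e3 : p.1 + α₁ * p.2 - α₃ * p.2 = p.1 - (α₃ - α₁) * p.2 := by ring
    have e4 : p.1 - -α₁ * p.2 = p.1 + α₁ * p.2 := by ring
    rw [e1, e2, e3, e4]
    ring
  have hW : Integrable (fun p : ℝ × ℝ => f p.1 * ph ε R α₁ α₂ α₃ D f₂ f₃ p.1 p.2) volume := by
    rw [← (cshear α₁).integrable_comp_emb (cshear_emb α₁)]
    refine hV.congr (ae_of_all _ fun p => ?_)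
    exact (hc p).symm
  have e5 : ∫ p : ℝ × ℝ, f p.1 * ph ε R α₁ α₂ α₃ D f₂ f₃ p.1 p.2 =
      ∫ p : ℝ × ℝ, D p.1 * ph ε R (-α₁) (α₂ - α₁) (α₃ - α₁) f f₂ f₃ p.1 p.2 := by
    rw [← (cshear α₁).integral_comp (cshear_emb α₁)]
    congr 1
    funext p
    exact hc p
  rw [← e5]
  rw [Measure.volume_eq_prod] at hW ⊢
  rw [integral_prod _ hW]
  congr 1
  funext x
  unfold TT
  rw [← integral_const_mul]

theorem TT_meas_D {D : ℝ → ℂ} (hD : Measurable D) {f₂ f₃ : ℝ → ℂ} (h₂ : Nice f₂)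
    (h₃ : Nice f₃) : Measurable (TT ε R α₁ α₂ α₃ D f₂ f₃) :=
  ((ph_meas hD h₂.meas h₃.meas).stronglyMeasurable.integral_prod_right'
    (ν := volume)).measurable

theorem TT_bdd_D {D : ℝ → ℂ} (hD1 : ∀ x, ‖D x‖ ≤ 1) (hε : 0 < ε) {f₂ f₃ : ℝ → ℂ}
    (h₂ : Nice f₂) (h₃ : Nice f₃) : ∃ B, ∀ x, ‖TT ε R α₁ α₂ α₃ D f₂ f₃ x‖ ≤ B := by
  obtain ⟨B₂, hB₂⟩ := h₂.bdd
  obtain ⟨B₃, hB₃⟩ := h₃.bdd
  have hB₂0 : 0 ≤ B₂ := (norm_nonneg _).trans (hB₂ 0)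
  have hB₃0 : 0 ≤ B₃ := (norm_nonneg _).trans (hB₃ 0)
  refine ⟨∫ t, av ε R t * (1 * B₂ * B₃), fun x => ?_⟩
  refine norm_integral_le_of_norm_le ((av_int hε).mul_const _) (ae_of_all _ fun t => ?_)
  unfold ph FF
  rw [norm_mul, uu_norm, norm_mul, norm_mul]
  have a1 := av_nonneg ε R t
  have c1 := hD1 (x - α₁ * t)
  have c2 := hB₂ (x - α₂ * t)
  have c3 := hB₃ (x - α₃ * t)
  gcongr

theorem oper {D : ℝ → ℂ} (hD : Measurable D) (hD1 : ∀ x, ‖D x‖ ≤ 1) {A : ℝ} (hA : 0 ≤ A)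
    (hε : 0 < ε) (h : FormBd D A ε R (-α₁) (α₂ - α₁) (α₃ - α₁)) {f₂ f₃ : ℝ → ℂ}
    (h₂ : Nice f₂) (h₃ : Nice f₃) :
    eLpNorm (TT ε R α₁ α₂ α₃ D f₂ f₃) (3 / 2) volume ≤
      ENNReal.ofReal A * eLpNorm f₂ 3 volume * eLpNorm f₃ 3 volume := by
  have l₂ := h₂.memLp (p := 3) (by norm_num) (by norm_num)
  have l₃ := h₃.memLp (p := 3) (by norm_num) (by norm_num)
  set a₂ := (eLpNorm f₂ 3 volume).toReal with ha₂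
  set a₃ := (eLpNorm f₃ 3 volume).toReal with ha₃
  have ha₂0 : 0 ≤ a₂ := ENNReal.toReal_nonneg
  have ha₃0 : 0 ≤ a₃ := ENNReal.toReal_nonneg
  obtain ⟨B, hB⟩ := TT_bdd_D (R := R) (α₁ := α₁) (α₂ := α₂) (α₃ := α₃) hD1 hε h₂ h₃
  have key := dual (d₀ := 1 / 3) (by norm_num) (by norm_num)
    (TT_meas_D (ε := ε) (R := R) (α₁ := α₁) (α₂ := α₂) (α₃ := α₃) hD h₂ h₃) hB
    (A := A * (a₂ * a₃)) (by positivity) (fun f hf => by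
      rw [swap_form hD hD1 hε hf.nice h₂ h₃]
      refine (h f f₂ f₃ hf.nice h₂ h₃).trans (le_of_eq ?_)
      have hl := hf.nice.memLp (p := 3) (by norm_num) (by norm_num)
      have e1 : (eLpNorm f 3 volume).toReal = (NN f (1 / (1 / 3))) ^ ((1 : ℝ) / 3) := by
        rw [elp_NN hl (by norm_num) (by norm_num)]
        have e2 : (3 : ℝ≥0∞).toReal = 1 / (1 / 3) := by norm_num
        rw [e2, ENNReal.toReal_ofReal (Real.rpow_nonneg (NN_nonneg _ _) _)]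
        norm_num
      rw [e1]
      ring)
  have e3 : ENNReal.ofReal (1 / (1 - 1 / 3)) = 3 / 2 := by
    have : (1 : ℝ) / (1 - 1 / 3) = 3 / 2 := by norm_num
    rw [this, ENNReal.ofReal_div_of_pos (by norm_num)]
    norm_num
  rw [e3] at key
  refine key.trans (le_of_eq ?_)
  rw [ENNReal.ofReal_mul hA, ENNReal.ofReal_mul ha₂0, ha₂, ha₃, ENNReal.ofReal_toReal l₂.2.ne,
    ENNReal.ofReal_toReal l₃.2.ne, mul_assoc]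

end Vale.Agent.P141.R2.H152
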