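import Vale.Agent.P141.R2.H152.Core

/-!
# The algebra generated by the structured functions: definition
-/

namespace Vale.Agent.P141.R2.H152

open MeasureTheory Set

/-- the cube `[0,H]³` -/
def cube (H : ℝ) : Set (ℝ × ℝ × ℝ) := Icc (0 : ℝ) H ×ˢ (Icc (0 : ℝ) H ×ˢ Icc (0 : ℝ) H)

/-- the product of the three factors -/
def tri {Ω : Type} (G : Fin 3 → Ω × ℝ × ℝ × ℝ → ℂ) (ω : Ω) (x : ℝ) (h : ℝ × ℝ × ℝ) : ℂ :=
  G 0 (ω, x + h.1, h.2.1, h.2.2) * G 1 (ω, x + h.2.1, h.1, h.2.2) * G 2 (ω, x + h.2.2, h.1, h.2.1)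

/-- `D` is an average of total mass at most `M` of structured functions of scale `H` -/
def Alg (H M : ℝ) (D : ℝ → ℂ) : Prop :=
  ∃ (Ω : Type) (_ : MeasurableSpace Ω) (μ : Measure Ω) (G : Fin 3 → Ω × ℝ × ℝ × ℝ → ℂ),
    μ univ ≤ ENNReal.ofReal M ∧ (∀ i, Measurable (G i)) ∧ (∀ i p, ‖G i p‖ ≤ 1) ∧
    ∀ x, D x = ∫ ω, (((H ^ 3 : ℝ) : ℂ)⁻¹ * ∫ h in cube H, tri G ω x h) ∂μ

end Vale.Agent.P141.R2.H152
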