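import Vale.Agent.P141.R2.H152.Alg

/-!
# The algebra generated by the structured functions: sums
-/

namespace Vale.Agent.P141.R2.H152

open MeasureTheory Set

theorem measurable_tri {Ω : Type} [MeasurableSpace Ω] {G : Fin 3 → Ω × ℝ × ℝ × ℝ → ℂ}
    (hG : ∀ i, Measurable (G i)) (x : ℝ) :
    Measurable (fun p : Ω × ℝ × ℝ × ℝ => tri G p.1 x p.2) := by
  unfold tri
  refine (((hG 0).comp ?_).mul ((hG 1).comp ?_)).mul ((hG 2).comp ?_)
  · fun_prop
  · fun_prop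
  · fun_prop

theorem norm_tri_le {Ω : Type} {G : Fin 3 → Ω × ℝ × ℝ × ℝ → ℂ} (hb : ∀ i p, ‖G i p‖ ≤ 1)
    (ω : Ω) (x : ℝ) (h : ℝ × ℝ × ℝ) : ‖tri G ω x h‖ ≤ 1 := by
  unfold tri
  rw [norm_mul, norm_mul]
  have h0 := hb 0 (ω, x + h.1, h.2.1, h.2.2)
  have h1 := hb 1 (ω, x + h.2.1, h.1, h.2.2)
  have h2 := hb 2 (ω, x + h.2.2, h.1, h.2.1)
  calc _ ≤ (1 : ℝ) * 1 * 1 := by gcongr
    _ = 1 := by norm_num

theorem volume_cube_lt_top (H : ℝ) : volume (cube H) < ⊤ :=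
  (isCompact_Icc.prod (isCompact_Icc.prod isCompact_Icc)).measure_lt_top

theorem integrable_avg {Ω : Type} [MeasurableSpace Ω] {μ : Measure Ω} [IsFiniteMeasure μ]
    {G : Fin 3 → Ω × ℝ × ℝ × ℝ → ℂ} (hG : ∀ i, Measurable (G i)) (hb : ∀ i p, ‖G i p‖ ≤ 1)
    (H x : ℝ) :
    Integrable (fun ω => ((H ^ 3 : ℝ) : ℂ)⁻¹ * ∫ h in cube H, tri G ω x h) μ := by
  have hm : StronglyMeasurable (fun ω => ∫ h in cube H, tri G ω x h) :=
    StronglyMeasurable.integral_prod_right (f := fun ω h => tri G ω x h)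
      (measurable_tri hG x).stronglyMeasurable
  refine Integrable.of_bound (hm.const_mul _).aestronglyMeasurable
    (‖((H ^ 3 : ℝ) : ℂ)⁻¹‖ * (1 * volume.real (cube H))) (ae_of_all _ fun ω => ?_)
  rw [norm_mul]
  refine mul_le_mul_of_nonneg_left ?_ (norm_nonneg _)
  exact norm_setIntegral_le_of_norm_le_const (volume_cube_lt_top H)
    fun h _ => norm_tri_le hb ω x h

theorem measurableEmbedding_inl {Ω Ω' : Type} [MeasurableSpace Ω] [MeasurableSpace Ω'] :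
    MeasurableEmbedding (Sum.inl : Ω → Ω ⊕ Ω') :=
  ⟨Sum.inl_injective, measurable_inl, fun _ hs => MeasurableSet.inl_image hs⟩

theorem measurableEmbedding_inr {Ω Ω' : Type} [MeasurableSpace Ω] [MeasurableSpace Ω'] :
    MeasurableEmbedding (Sum.inr : Ω' → Ω ⊕ Ω') :=
  ⟨Sum.inr_injective, measurable_inr, fun _ hs => MeasurableSet.inr_image hs⟩

/-- more mass is allowed -/
theorem Alg.mono {H M M' : ℝ} {D : ℝ → ℂ} (h : M ≤ M') (hD : Alg H M D) : Alg H M' D := by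
  obtain ⟨Ω, mΩ, μ, G, h1, h2, h3, h4⟩ := hD
  exact ⟨Ω, mΩ, μ, G, h1.trans (ENNReal.ofReal_le_ofReal h), h2, h3, h4⟩

/-- the sum of two averages of structured functions -/
theorem Alg.add {H M M' : ℝ} {D D' : ℝ → ℂ} (hM : 0 ≤ M) (hM' : 0 ≤ M') (h : Alg H M D)
    (h' : Alg H M' D') : Alg H (M + M') (fun x => D x + D' x) := by
  obtain ⟨Ω, mΩ, μ, G, h1, h2, h3, h4⟩ := h
  obtain ⟨Ω', mΩ', μ', G', h1', h2', h3', h4'⟩ := h'
  have hμ : IsFiniteMeasure μ := ⟨h1.trans_lt ENNReal.ofReal_lt_top⟩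
  have hμ' : IsFiniteMeasure μ' := ⟨h1'.trans_lt ENNReal.ofReal_lt_top⟩
  let K : Fin 3 → (Ω ⊕ Ω') × ℝ × ℝ × ℝ → ℂ := fun i p =>
    Sum.elim (fun ω => G i (ω, p.2)) (fun ω => G' i (ω, p.2)) p.1
  refine ⟨Ω ⊕ Ω', inferInstance, μ.map Sum.inl + μ'.map Sum.inr, K, ?_, ?_, ?_, ?_⟩
  · rw [Measure.add_apply, Measure.map_apply measurable_inl MeasurableSet.univ,
      Measure.map_apply measurable_inr MeasurableSet.univ, preimage_univ, preimage_univ,
      ENNReal.ofReal_add hM hM']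
    exact add_le_add h1 h1'
  · intro i
    have e : K i = Sum.elim (G i) (G' i) ∘ MeasurableEquiv.sumProdDistrib Ω Ω' (ℝ × ℝ × ℝ) := by
      funext p
      obtain ⟨s, y⟩ := p
      cases s <;> rfl
    rw [e]
    exact ((h2 i).sumElim (h2' i)).comp (MeasurableEquiv.measurable _)
  · rintro i ⟨s, y⟩
    cases s with
    | inl ω => exact h3 i _
    | inr ω => exact h3' i _
  · intro x
    have e1 : ∀ ω, (((H ^ 3 : ℝ) : ℂ)⁻¹ * ∫ h in cube H, tri K (Sum.inl ω) x h) =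
        ((H ^ 3 : ℝ) : ℂ)⁻¹ * ∫ h in cube H, tri G ω x h := fun ω => rfl
    have e2 : ∀ ω, (((H ^ 3 : ℝ) : ℂ)⁻¹ * ∫ h in cube H, tri K (Sum.inr ω) x h) =
        ((H ^ 3 : ℝ) : ℂ)⁻¹ * ∫ h in cube H, tri G' ω x h := fun ω => rfl
    rw [integral_add_measure, measurableEmbedding_inl.integral_map,
      measurableEmbedding_inr.integral_map]
    · simp only [e1, e2]
      rw [h4, h4']
    · rw [measurableEmbedding_inl.integrable_map_iff]
      exact integrable_avg h2 h3 H x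
    · rw [measurableEmbedding_inr.integrable_map_iff]
      exact integrable_avg h2' h3' H x

end Vale.Agent.P141.R2.H152
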