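import Vale.Agent.P141.H97.Dual

/-!
# The far part of the truncated trilinear operator

`∫_{a<|t|<b} D(x-α₁t) f₂(x-α₂t) f₃(x-α₃t) dt/t` for a bounded function `D`: Hoelder in `t`
against the weight `dt/|t|` and then Hoelder in `x` give the constant `2 log (b/a)`.
-/

namespace Vale.Agent.P141.R2.H152

open MeasureTheory Set Vale.Agent.P141.H97
open scoped ENNReal

variable {a b ε H R α₁ α₂ α₃ : ℝ}

/-- total mass of the weight -/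
theorem uu_mass (ha : 0 < a) (hab : a < b) :
    ∫⁻ t, ‖uu a b t‖ₑ = ENNReal.ofReal (2 * Real.log (b / a)) := by
  rw [← av_integral ha hab, ofReal_integral_eq_lintegral_ofReal (av_int ha)
    (ae_of_all _ fun t => av_nonneg a b t)]
  refine lintegral_congr fun t => ?_
  rw [← ofReal_norm, uu_norm]

/-- Hoelder for a weight, exponent `3/2` -/
theorem weight_holder {w g : ℝ → ℝ≥0∞} (hw : Measurable w) (hg : Measurable g) :
    (∫⁻ t, w t * g t) ^ (3 / 2 : ℝ) ≤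
      (∫⁻ t, w t) ^ (1 / 2 : ℝ) * ∫⁻ t, w t * g t ^ (3 / 2 : ℝ) := by
  have hpq : (3 : ℝ).HolderConjugate (3 / 2) := by
    rw [Real.holderConjugate_iff]; norm_num
  have h := ENNReal.lintegral_mul_le_Lp_mul_Lq volume hpq
    (f := fun t => w t ^ (1 / 3 : ℝ)) (g := fun t => w t ^ (2 / 3 : ℝ) * g t)
    (hw.pow_const _).aemeasurable ((hw.pow_const _).mul hg).aemeasurable
  have e1 : ∀ t, ((fun t => w t ^ (1 / 3 : ℝ)) * fun t => w t ^ (2 / 3 : ℝ) * g t) t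
      = w t * g t := by
    intro t
    simp only [Pi.mul_apply]
    rw [← mul_assoc, ← ENNReal.rpow_add_of_nonneg _ _ (by norm_num) (by norm_num)]
    norm_num
  have e2 : ∀ t, (w t ^ (1 / 3 : ℝ)) ^ (3 : ℝ) = w t := by
    intro t
    rw [← ENNReal.rpow_mul]; norm_num
  have e3 : ∀ t, (w t ^ (2 / 3 : ℝ) * g t) ^ (3 / 2 : ℝ) = w t * g t ^ (3 / 2 : ℝ) := by
    intro t
    rw [ENNReal.mul_rpow_of_nonneg _ _ (by norm_num), ← ENNReal.rpow_mul]; norm_num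
  simp only [e1, e2, e3] at h
  refine (ENNReal.rpow_le_rpow h (by norm_num : (0 : ℝ) ≤ 3 / 2)).trans (le_of_eq ?_)
  rw [ENNReal.mul_rpow_of_nonneg _ _ (by norm_num), ← ENNReal.rpow_mul, ← ENNReal.rpow_mul]
  norm_num

/-- the product of two shifted functions in `L^{3/2}` -/
theorem two_shift {g₂ g₃ : ℝ → ℂ} (h₂ : Measurable g₂) (h₃ : Measurable g₃) (s₂ s₃ : ℝ) :
    ∫⁻ x, ‖g₂ (x - s₂) * g₃ (x - s₃)‖ₑ ^ (3 / 2 : ℝ) ≤
      (eLpNorm g₂ 3 volume * eLpNorm g₃ 3 volume) ^ (3 / 2 : ℝ) := by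
  have := holder33
  have m₂ : Measurable fun x => g₂ (x - s₂) := h₂.comp (measurable_id.sub_const _)
  have m₃ : Measurable fun x => g₃ (x - s₃) := h₃.comp (measurable_id.sub_const _)
  have h1 := eLpNorm_smul_le_mul_eLpNorm (p := 3) (q := 3) (r := 3 / 2) (μ := volume)
    (f := fun x => g₃ (x - s₃)) (φ := fun x => g₂ (x - s₂)) m₃.aestronglyMeasurable
    m₂.aestronglyMeasurable
  rw [eLpNorm_shift h₂, eLpNorm_shift h₃,
    eLpNorm_eq_lintegral_rpow_enorm_toReal (by simp) (by simp [ENNReal.div_eq_top])] at h1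
  have e : (3 / 2 : ℝ≥0∞).toReal = 3 / 2 := by simp
  rw [e] at h1
  have h2 := ENNReal.rpow_le_rpow h1 (by norm_num : (0 : ℝ) ≤ 3 / 2)
  rw [← ENNReal.rpow_mul] at h2
  refine le_trans (le_of_eq ?_) h2
  norm_num

/-- Minkowski in the form needed: a weight of mass `M` -/
theorem far_core {w : ℝ → ℝ≥0∞} (hw : Measurable w) {M K : ℝ≥0∞} (hmass : ∫⁻ t, w t = M)
    (hM : M ≠ ∞) (hwf : ∀ t, w t ≠ ∞) {G : ℝ → ℝ → ℝ≥0∞}
    (hG : Measurable fun p : ℝ × ℝ => G p.1 p.2)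
    (hK : ∀ t, ∫⁻ x, G x t ^ (3 / 2 : ℝ) ≤ K ^ (3 / 2 : ℝ)) {F : ℝ → ℝ≥0∞}
    (hF : ∀ x, F x ≤ ∫⁻ t, w t * G x t) :
    ∫⁻ x, F x ^ (3 / 2 : ℝ) ≤ (M * K) ^ (3 / 2 : ℝ) := by
  have hpos : (0 : ℝ) ≤ 3 / 2 := by norm_num
  have s1 : ∀ x, F x ^ (3 / 2 : ℝ) ≤ M ^ (1 / 2 : ℝ) * ∫⁻ t, w t * G x t ^ (3 / 2 : ℝ) := by
    intro x
    refine (ENNReal.rpow_le_rpow (hF x) hpos).trans ?_
    have h := weight_holder hw (hG.comp (measurable_const.prodMk measurable_id) :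
      Measurable fun t => G x t)
    rw [hmass] at h
    exact h
  have s2 : ∫⁻ x, ∫⁻ t, w t * G x t ^ (3 / 2 : ℝ) = ∫⁻ t, ∫⁻ x, w t * G x t ^ (3 / 2 : ℝ) :=
    lintegral_lintegral_swap ((hw.comp measurable_snd).mul (hG.pow_const _)).aemeasurable
  have s3 : ∀ t, ∫⁻ x, w t * G x t ^ (3 / 2 : ℝ) ≤ w t * K ^ (3 / 2 : ℝ) := by
    intro t
    rw [lintegral_const_mul' _ _ (hwf t)]
    exact mul_le_mul_right (hK t) _
  have hMf : M ^ (1 / 2 : ℝ) ≠ ∞ :=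
    (ENNReal.rpow_lt_top_of_nonneg (by norm_num) hM).ne
  have s4 : M ^ (1 / 2 : ℝ) * M = M ^ (3 / 2 : ℝ) := by
    nth_rewrite 2 [← ENNReal.rpow_one M]
    rw [← ENNReal.rpow_add_of_nonneg _ _ (by norm_num) (by norm_num)]
    norm_num
  calc ∫⁻ x, F x ^ (3 / 2 : ℝ)
      ≤ ∫⁻ x, M ^ (1 / 2 : ℝ) * ∫⁻ t, w t * G x t ^ (3 / 2 : ℝ) := lintegral_mono s1
    _ = M ^ (1 / 2 : ℝ) * ∫⁻ t, ∫⁻ x, w t * G x t ^ (3 / 2 : ℝ) := by
        rw [lintegral_const_mul' _ _ hMf, s2]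
    _ ≤ M ^ (1 / 2 : ℝ) * ∫⁻ t, w t * K ^ (3 / 2 : ℝ) :=
        mul_le_mul_right (lintegral_mono s3) _
    _ = M ^ (1 / 2 : ℝ) * (M * K ^ (3 / 2 : ℝ)) := by
        rw [lintegral_mul_const _ hw, hmass]
    _ = _ := by
        rw [ENNReal.mul_rpow_of_nonneg _ _ hpos, ← mul_assoc, s4]

theorem far {D : ℝ → ℂ} (hD : Measurable D) (hD1 : ∀ x, ‖D x‖ ≤ 1) (ha : 0 < a) (hab : a < b)
    {f₂ f₃ : ℝ → ℂ} (h₂ : Nice f₂) (h₃ : Nice f₃) :
    eLpNorm (TT a b α₁ α₂ α₃ D f₂ f₃) (3 / 2) volume ≤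
      ENNReal.ofReal (2 * Real.log (b / a)) * eLpNorm f₂ 3 volume * eLpNorm f₃ 3 volume := by
  have hwm : Measurable fun t => ‖uu a b t‖ₑ := (uu_meas a b).enorm
  have mm : ∀ α : ℝ, Measurable fun p : ℝ × ℝ => p.1 - α * p.2 := fun α =>
    measurable_fst.sub (measurable_const.mul measurable_snd)
  have hGm : Measurable fun p : ℝ × ℝ => ‖f₂ (p.1 - α₂ * p.2) * f₃ (p.1 - α₃ * p.2)‖ₑ :=
    ((h₂.meas.comp (mm α₂)).mul (h₃.meas.comp (mm α₃))).enorm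
  have hpt : ∀ x, ‖TT a b α₁ α₂ α₃ D f₂ f₃ x‖ₑ ≤
      ∫⁻ t, ‖uu a b t‖ₑ * ‖f₂ (x - α₂ * t) * f₃ (x - α₃ * t)‖ₑ := by
    intro x
    refine (enorm_integral_le_lintegral_enorm _).trans (lintegral_mono fun t => ?_)
    show ‖ph a b α₁ α₂ α₃ D f₂ f₃ x t‖ₑ ≤ _
    unfold ph FF
    rw [enorm_mul, mul_assoc, enorm_mul (D _)]
    have hDe : ‖D (x - α₁ * t)‖ₑ ≤ 1 := by
      rw [← ofReal_norm]
      exact (ENNReal.ofReal_le_ofReal (hD1 _)).trans (by simp)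
    refine mul_le_mul_right ?_ _
    exact (mul_le_mul_left hDe _).trans (one_mul _).le
  have hint := far_core hwm (uu_mass ha hab) ENNReal.ofReal_ne_top (fun t => by simp)
    (G := fun x t => ‖f₂ (x - α₂ * t) * f₃ (x - α₃ * t)‖ₑ) hGm
    (fun t => two_shift h₂.meas h₃.meas (α₂ * t) (α₃ * t)) hpt
  rw [eLpNorm_eq_lintegral_rpow_enorm_toReal (by simp) (by simp [ENNReal.div_eq_top])]
  have e : (3 / 2 : ℝ≥0∞).toReal = 3 / 2 := by simp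
  rw [e]
  refine (ENNReal.rpow_le_rpow hint (by norm_num : (0 : ℝ) ≤ 1 / (3 / 2))).trans (le_of_eq ?_)
  rw [← ENNReal.rpow_mul, mul_assoc]
  norm_num

theorem far_pair {D : ℝ → ℂ} (hD : Measurable D) (hD1 : ∀ x, ‖D x‖ ≤ 1) (ha : 0 < a)
    (hab : a < b) {f₁ f₂ f₃ : ℝ → ℂ} (h₁ : Nice f₁) (h₂ : Nice f₂) (h₃ : Nice f₃) :
    ‖∫ x, D x * TT a b α₁ α₂ α₃ f₁ f₂ f₃ x‖ ≤ 2 * Real.log (b / a) *
      ((eLpNorm f₁ 3 volume).toReal * (eLpNorm f₂ 3 volume).toReal *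
        (eLpNorm f₃ 3 volume).toReal) := by
  have hlog : 0 ≤ 2 * Real.log (b / a) := by
    have : 1 ≤ b / a := by rw [le_div_iff₀ ha]; linarith
    have := Real.log_nonneg this
    linarith
  have n₁ : eLpNorm f₁ 3 volume ≠ ∞ := (h₁.memLp (by norm_num) (by simp)).eLpNorm_ne_top
  have n₂ : eLpNorm f₂ 3 volume ≠ ∞ := (h₂.memLp (by norm_num) (by simp)).eLpNorm_ne_top
  have n₃ : eLpNorm f₃ 3 volume ≠ ∞ := (h₃.memLp (by norm_num) (by simp)).eLpNorm_ne_top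
  have hwm : Measurable fun t => ‖uu a b t‖ₑ := (uu_meas a b).enorm
  have key : ‖∫ x, D x * TT a b α₁ α₂ α₃ f₁ f₂ f₃ x‖ₑ ≤
      ENNReal.ofReal (2 * Real.log (b / a)) *
        (eLpNorm f₁ 3 volume * (eLpNorm f₂ 3 volume * eLpNorm f₃ 3 volume)) := by
    calc ‖∫ x, D x * TT a b α₁ α₂ α₃ f₁ f₂ f₃ x‖ₑ
        ≤ ∫⁻ x, ∫⁻ t, ‖uu a b t‖ₑ * ‖FF α₁ α₂ α₃ f₁ f₂ f₃ x t‖ₑ := by
          refine (enorm_integral_le_lintegral_enorm _).trans (lintegral_mono fun x => ?_)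
          rw [enorm_mul]
          have hDe : ‖D x‖ₑ ≤ 1 := by
            rw [← ofReal_norm]
            exact (ENNReal.ofReal_le_ofReal (hD1 _)).trans (by simp)
          calc ‖D x‖ₑ * ‖TT a b α₁ α₂ α₃ f₁ f₂ f₃ x‖ₑ
              ≤ 1 * ‖TT a b α₁ α₂ α₃ f₁ f₂ f₃ x‖ₑ := by gcongr
            _ = ‖TT a b α₁ α₂ α₃ f₁ f₂ f₃ x‖ₑ := one_mul _
            _ ≤ _ := by
              refine (enorm_integral_le_lintegral_enorm _).trans (le_of_eq ?_)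
              refine lintegral_congr fun t => ?_
              show ‖ph a b α₁ α₂ α₃ f₁ f₂ f₃ x t‖ₑ = _
              unfold ph
              rw [enorm_mul]
      _ = ∫⁻ t, ∫⁻ x, ‖uu a b t‖ₑ * ‖FF α₁ α₂ α₃ f₁ f₂ f₃ x t‖ₑ := by
          rw [lintegral_lintegral_swap]
          exact ((hwm.comp measurable_snd).mul
            (FF_meas h₁.meas h₂.meas h₃.meas).enorm).aemeasurable
      _ ≤ ∫⁻ t, ‖uu a b t‖ₑ *
            (eLpNorm f₁ 3 volume * (eLpNorm f₂ 3 volume * eLpNorm f₃ 3 volume)) := by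
          refine lintegral_mono fun t => ?_
          rw [lintegral_const_mul' _ _ (by simp)]
          gcongr
          exact holder3 h₁.meas h₂.meas h₃.meas _ _ _
      _ = _ := by rw [lintegral_mul_const _ hwm, uu_mass ha hab]
  have hfin : ENNReal.ofReal (2 * Real.log (b / a)) *
        (eLpNorm f₁ 3 volume * (eLpNorm f₂ 3 volume * eLpNorm f₃ 3 volume)) ≠ ∞ :=
    ENNReal.mul_ne_top ENNReal.ofReal_ne_top (ENNReal.mul_ne_top n₁ (ENNReal.mul_ne_top n₂ n₃))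
  have h := ENNReal.toReal_mono hfin key
  rw [toReal_enorm, ENNReal.toReal_mul, ENNReal.toReal_mul, ENNReal.toReal_mul,
    ENNReal.toReal_ofReal hlog] at h
  rw [mul_assoc (eLpNorm f₁ 3 volume).toReal]
  exact h

/-- integrability of the cut-off integrand for bounded measurable functions -/
theorem ph_int {g₁ g₂ g₃ : ℝ → ℂ} (m₁ : Measurable g₁) (m₂ : Measurable g₂) (m₃ : Measurable g₃)
    {B₁ B₂ B₃ : ℝ} (b₁ : ∀ x, ‖g₁ x‖ ≤ B₁) (b₂ : ∀ x, ‖g₂ x‖ ≤ B₂) (b₃ : ∀ x, ‖g₃ x‖ ≤ B₃)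
    (ha : 0 < a) (x : ℝ) : Integrable (fun t => ph a b α₁ α₂ α₃ g₁ g₂ g₃ x t) volume := by
  have hB₁ : 0 ≤ B₁ := (norm_nonneg _).trans (b₁ 0)
  have hB₂ : 0 ≤ B₂ := (norm_nonneg _).trans (b₂ 0)
  have hB₃ : 0 ≤ B₃ := (norm_nonneg _).trans (b₃ 0)
  refine ((av_int (b := b) ha).mul_const (B₁ * B₂ * B₃)).mono'
    ((ph_meas m₁ m₂ m₃).comp (measurable_const.prodMk measurable_id)).aestronglyMeasurable
    (ae_of_all _ fun t => ?_)
  unfold ph FF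
  rw [norm_mul, uu_norm, norm_mul, norm_mul]
  have a1 := av_nonneg a b t
  have c1 := b₁ (x - α₁ * t)
  have c2 := b₂ (x - α₂ * t)
  have c3 := b₃ (x - α₃ * t)
  gcongr

theorem TT_split {g₁ g₂ g₃ : ℝ → ℂ} (m₁ : Measurable g₁) (m₂ : Measurable g₂)
    (m₃ : Measurable g₃) {B₁ B₂ B₃ : ℝ} (b₁ : ∀ x, ‖g₁ x‖ ≤ B₁) (b₂ : ∀ x, ‖g₂ x‖ ≤ B₂)
    (b₃ : ∀ x, ‖g₃ x‖ ≤ B₃) (hε : 0 < ε) (h1 : ε < H) (h2 : H < R) (x : ℝ) :
    TT ε R α₁ α₂ α₃ g₁ g₂ g₃ x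
      = TT ε H α₁ α₂ α₃ g₁ g₂ g₃ x + TT H R α₁ α₂ α₃ g₁ g₂ g₃ x := by
  unfold TT
  rw [← integral_add (ph_int m₁ m₂ m₃ b₁ b₂ b₃ hε x)
    (ph_int m₁ m₂ m₃ b₁ b₂ b₃ (hε.trans h1) x)]
  refine integral_congr_ae ?_
  have hnull : ∀ᵐ t : ℝ, t ∉ ({H, -H} : Set ℝ) :=
    measure_eq_zero_iff_ae_notMem.1 (((finite_singleton (-H)).insert H).measure_zero _)
  filter_upwards [hnull] with t ht
  have hne : |t| ≠ H := by
    intro h
    apply ht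
    rcases abs_choice t with h' | h'
    · left; rw [← h, h']
    · right; rw [mem_singleton_iff, ← h, h', neg_neg]
  have e : uu ε R t = uu ε H t + uu H R t := by
    unfold uu
    rcases lt_or_gt_of_ne hne with hlt | hgt
    · have n2 : t ∉ {t : ℝ | H < |t| ∧ |t| < R} := fun h => absurd h.1 (not_lt.2 hlt.le)
      rw [indicator_of_notMem n2, add_zero]
      by_cases hc : ε < |t|
      · rw [indicator_of_mem (show t ∈ {t : ℝ | ε < |t| ∧ |t| < R} from ⟨hc, hlt.trans h2⟩),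
          indicator_of_mem (show t ∈ {t : ℝ | ε < |t| ∧ |t| < H} from ⟨hc, hlt⟩)]
      · rw [indicator_of_notMem (show t ∉ {t : ℝ | ε < |t| ∧ |t| < R} from fun h => hc h.1),
          indicator_of_notMem (show t ∉ {t : ℝ | ε < |t| ∧ |t| < H} from fun h => hc h.1)]
    · have n1 : t ∉ {t : ℝ | ε < |t| ∧ |t| < H} := fun h => absurd h.2 (not_lt.2 hgt.le)
      rw [indicator_of_notMem n1, zero_add]
      by_cases hc : |t| < R
      · rw [indicator_of_mem (show t ∈ {t : ℝ | ε < |t| ∧ |t| < R} from ⟨h1.trans hgt, hc⟩),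
          indicator_of_mem (show t ∈ {t : ℝ | H < |t| ∧ |t| < R} from ⟨hgt, hc⟩)]
      · rw [indicator_of_notMem (show t ∉ {t : ℝ | ε < |t| ∧ |t| < R} from fun h => hc h.2),
          indicator_of_notMem (show t ∉ {t : ℝ | H < |t| ∧ |t| < R} from fun h => hc h.2)]
  show ph ε R α₁ α₂ α₃ g₁ g₂ g₃ x t
    = ph ε H α₁ α₂ α₃ g₁ g₂ g₃ x t + ph H R α₁ α₂ α₃ g₁ g₂ g₃ x t
  unfold ph
  rw [e]
  ring

end Vale.Agent.P141.R2.H152
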