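import Vale.Agent.P141.R2.H152.Bound
import Vale.Agent.P141.R2.H152.Oper
import Vale.Agent.P141.R2.H152.Far

/-!
# The operator with one structured function: assembly
-/

namespace Vale.Agent.P141.R2.H152

open MeasureTheory Set Vale.Agent.P141.H97
open scoped ENNReal

/-- the dependence on the slopes -/
noncomputable def KK (c₁ c₂ c₃ : ℝ) : ℝ :=
  |c₁ * c₂ * c₃| ^ ((1 : ℝ) / 3) * (1 + |c₁|⁻¹ + |c₂|⁻¹ + |c₃|⁻¹)

theorem KK_nonneg (c₁ c₂ c₃ : ℝ) : 0 ≤ KK c₁ c₂ c₃ := by unfold KK; positivity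

/-- the form bound for `R ≤ H` -/
theorem near : ∃ C : ℝ, 0 ≤ C ∧ ∀ (H c₁ c₂ c₃ : ℝ) (G₁ G₂ G₃ : ℝ × ℝ × ℝ → ℂ),
    0 < H → c₁ ≠ 0 → c₂ ≠ 0 → c₃ ≠ 0 → c₂ ≠ c₃ → One G₁ → One G₂ → One G₃ →
      ∀ ε R : ℝ, 0 < ε → ε < R → R ≤ H →
        FormBd (dualFn H G₁ G₂ G₃) (C * KK c₁ c₂ c₃) ε R c₁ c₂ c₃ := by
  obtain ⟨C, hC0, hC⟩ := form
  refine ⟨C, hC0, fun H c₁ c₂ c₃ G₁ G₂ G₃ hH n₁ n₂ n₃ n g₁ g₂ g₃ ε R hε hR hRH f₁ f₂ f₃ h₁ h₂ h₃ =>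
    (hC H c₁ c₂ c₃ G₁ G₂ G₃ f₁ f₂ f₃ hH n₁ n₂ n₃ n g₁ g₂ g₃ h₁ h₂ h₃ ε R hε hR).trans ?_⟩
  have h4 : R / H ≤ 1 := (div_le_one hH).2 hRH
  have h5 : C * |c₁ * c₂ * c₃| ^ ((1 : ℝ) / 3) * (R / H + |c₁|⁻¹ + |c₂|⁻¹ + |c₃|⁻¹)
      ≤ C * KK c₁ c₂ c₃ := by
    unfold KK
    rw [← mul_assoc]
    gcongr
  gcongr

/-- **the pairing with a structured function** -/
theorem pair_all : ∃ C : ℝ, 0 ≤ C ∧ ∀ (H c₁ c₂ c₃ : ℝ) (G₁ G₂ G₃ : ℝ × ℝ × ℝ → ℂ),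
    0 < H → c₁ ≠ 0 → c₂ ≠ 0 → c₃ ≠ 0 → c₂ ≠ c₃ → One G₁ → One G₂ → One G₃ →
      ∀ f₁ f₂ f₃ : ℝ → ℂ, Nice f₁ → Nice f₂ → Nice f₃ → ∀ ε R : ℝ, 0 < ε → ε < R →
        ‖∫ x, dualFn H G₁ G₂ G₃ x * TT ε R c₁ c₂ c₃ f₁ f₂ f₃ x‖ ≤
          (C * KK c₁ c₂ c₃ + 2 * Real.posLog (R / H)) * ((eLpNorm f₁ 3 volume).toReal *
            (eLpNorm f₂ 3 volume).toReal * (eLpNorm f₃ 3 volume).toReal) := by
  obtain ⟨C, hC0, hC⟩ := near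
  refine ⟨C, hC0, fun H c₁ c₂ c₃ G₁ G₂ G₃ hH n₁ n₂ n₃ n g₁ g₂ g₃ f₁ f₂ f₃ h₁ h₂ h₃ ε R hε hR => ?_⟩
  have hm := dualFn_meas (H := H) g₁ g₂ g₃
  have hb := dualFn_le hH g₁ g₂ g₃
  have hK := KK_nonneg c₁ c₂ c₃
  have hL : 0 ≤ Real.posLog (R / H) := Real.posLog_nonneg
  set N := (eLpNorm f₁ 3 volume).toReal * (eLpNorm f₂ 3 volume).toReal *
    (eLpNorm f₃ 3 volume).toReal with hN
  have hN0 : 0 ≤ N := by positivity
  rcases le_or_gt R H with hRH | hRH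
  · have h := pairing hm hb hε (hC H c₁ c₂ c₃ G₁ G₂ G₃ hH n₁ n₂ n₃ n g₁ g₂ g₃ ε R hε hR hRH)
      h₁ h₂ h₃
    refine h.trans (mul_le_mul_of_nonneg_right (by linarith) hN0)
  · have hlog : Real.posLog (R / H) = Real.log (R / H) :=
      Real.posLog_eq_log (by
        rw [abs_of_pos (div_pos (hε.trans hR) hH)]; exact (one_le_div hH).2 hRH.le)
    rcases lt_or_ge ε H with hεH | hεH
    · have hnear := pairing hm hb hε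
        (hC H c₁ c₂ c₃ G₁ G₂ G₃ hH n₁ n₂ n₃ n g₁ g₂ g₃ ε H hε hεH le_rfl) h₁ h₂ h₃
      have hfar := far_pair (α₁ := c₁) (α₂ := c₂) (α₃ := c₃) hm hb hH hRH h₁ h₂ h₃
      obtain ⟨B₁, hB₁⟩ := h₁.bdd
      obtain ⟨B₂, hB₂⟩ := h₂.bdd
      obtain ⟨B₃, hB₃⟩ := h₃.bdd
      have e : ∀ x, TT ε R c₁ c₂ c₃ f₁ f₂ f₃ x
          = TT ε H c₁ c₂ c₃ f₁ f₂ f₃ x + TT H R c₁ c₂ c₃ f₁ f₂ f₃ x := fun x =>
        TT_split h₁.meas h₂.meas h₃.meas hB₁ hB₂ hB₃ hε hεH hRH x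
      have i : ∀ a b : ℝ, 0 < a → Integrable fun x => dualFn H G₁ G₂ G₃ x *
          TT a b c₁ c₂ c₃ f₁ f₂ f₃ x := by
        intro a b ha
        have i0 := (ph_integrable (R := b) (c₁ := c₁) (c₂ := c₂) (c₃ := c₃) ha h₁ h₂ h₃)
        rw [Measure.volume_eq_prod] at i0
        have i1 : Integrable fun x => TT a b c₁ c₂ c₃ f₁ f₂ f₃ x := i0.integral_prod_left
        exact i1.bdd_mul hm.aestronglyMeasurable (ae_of_all _ hb)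
      simp only [e, mul_add]
      rw [integral_add (i ε H hε) (i H R hH)]
      refine (norm_add_le _ _).trans ((add_le_add hnear hfar).trans (le_of_eq ?_))
      rw [hlog, hN]
      ring
    · have hfar := far_pair (α₁ := c₁) (α₂ := c₂) (α₃ := c₃) hm hb hε hR h₁ h₂ h₃
      refine hfar.trans (mul_le_mul_of_nonneg_right ?_ hN0)
      have h6 : Real.log (R / ε) ≤ Real.log (R / H) := by
        apply Real.log_le_log (by have := hε.trans hR; positivity)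
        gcongr
        exact (hε.trans hR).le
      rw [hlog]
      have := mul_nonneg hC0 hK
      linarith

/-- **the operator with a structured function** -/
theorem op_all : ∃ C : ℝ, 0 ≤ C ∧ ∀ (H α₁ α₂ α₃ : ℝ) (G₁ G₂ G₃ : ℝ × ℝ × ℝ → ℂ),
    0 < H → α₁ ≠ 0 → α₂ ≠ α₁ → α₃ ≠ α₁ → α₂ ≠ α₃ → One G₁ → One G₂ → One G₃ →
      ∀ f₂ f₃ : ℝ → ℂ, Nice f₂ → Nice f₃ → ∀ ε R : ℝ, 0 < ε → ε < R →
        eLpNorm (TT ε R α₁ α₂ α₃ (dualFn H G₁ G₂ G₃) f₂ f₃) (3 / 2) volume ≤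
          ENNReal.ofReal (C * KK α₁ (α₂ - α₁) (α₃ - α₁) + 2 * Real.posLog (R / H)) *
            eLpNorm f₂ 3 volume * eLpNorm f₃ 3 volume := by
  obtain ⟨C, hC0, hC⟩ := near
  refine ⟨C, hC0, fun H α₁ α₂ α₃ G₁ G₂ G₃ hH n₁ n₂ n₃ n g₁ g₂ g₃ f₂ f₃ h₂ h₃ ε R hε hR => ?_⟩
  have hm := dualFn_meas (H := H) g₁ g₂ g₃
  have hb := dualFn_le hH g₁ g₂ g₃
  have hK := KK_nonneg α₁ (α₂ - α₁) (α₃ - α₁)
  have hKe : KK (-α₁) (α₂ - α₁) (α₃ - α₁) = KK α₁ (α₂ - α₁) (α₃ - α₁) := by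
    unfold KK
    rw [abs_neg, neg_mul, neg_mul, abs_neg]
  have hL : 0 ≤ Real.posLog (R / H) := Real.posLog_nonneg
  have hA : 0 ≤ C * KK α₁ (α₂ - α₁) (α₃ - α₁) := by positivity
  have hnear : ∀ ε' R' : ℝ, 0 < ε' → ε' < R' → R' ≤ H →
      eLpNorm (TT ε' R' α₁ α₂ α₃ (dualFn H G₁ G₂ G₃) f₂ f₃) (3 / 2) volume ≤
        ENNReal.ofReal (C * KK α₁ (α₂ - α₁) (α₃ - α₁)) *
          eLpNorm f₂ 3 volume * eLpNorm f₃ 3 volume := by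
    intro ε' R' h1 h2 h3
    rw [← hKe] at hA ⊢
    exact oper hm hb hA h1 (hC H (-α₁) (α₂ - α₁) (α₃ - α₁) G₁ G₂ G₃ hH (neg_ne_zero.2 n₁)
      (sub_ne_zero.2 n₂) (sub_ne_zero.2 n₃) (fun h => n (by linarith)) g₁ g₂ g₃ ε' R' h1 h2 h3)
      h₂ h₃
  rcases le_or_gt R H with hRH | hRH
  · refine (hnear ε R hε hR hRH).trans ?_
    gcongr
    linarith
  · have hlog : Real.posLog (R / H) = Real.log (R / H) :=
      Real.posLog_eq_log (by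
        rw [abs_of_pos (div_pos (hε.trans hR) hH)]; exact (one_le_div hH).2 hRH.le)
    rcases lt_or_ge ε H with hεH | hεH
    · have hfar := far (α₁ := α₁) (α₂ := α₂) (α₃ := α₃) hm hb hH hRH h₂ h₃
      obtain ⟨B₂, hB₂⟩ := h₂.bdd
      obtain ⟨B₃, hB₃⟩ := h₃.bdd
      have e : TT ε R α₁ α₂ α₃ (dualFn H G₁ G₂ G₃) f₂ f₃
          = TT ε H α₁ α₂ α₃ (dualFn H G₁ G₂ G₃) f₂ f₃ + TT H R α₁ α₂ α₃ (dualFn H G₁ G₂ G₃) f₂ f₃ :=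
        funext fun x => TT_split hm h₂.meas h₃.meas hb hB₂ hB₃ hε hεH hRH x
      have m : ∀ a b : ℝ, Measurable (TT a b α₁ α₂ α₃ (dualFn H G₁ G₂ G₃) f₂ f₃) := fun a b =>
        ((ph_meas hm h₂.meas h₃.meas).stronglyMeasurable.integral_prod_right'
          (ν := volume)).measurable
      rw [e]
      refine (eLpNorm_add_le (m ε H).aestronglyMeasurable (m H R).aestronglyMeasurable
        ?_).trans ((add_le_add (hnear ε H hε hεH le_rfl) hfar).trans (le_of_eq ?_))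
      · rw [← ENNReal.toReal_le_toReal (by simp) (by simp [ENNReal.div_eq_top])]
        norm_num
      · rw [hlog, ENNReal.ofReal_add hA (by rw [← hlog]; positivity)]
        ring
    · have hfar := far (α₁ := α₁) (α₂ := α₂) (α₃ := α₃) hm hb hε hR h₂ h₃
      refine hfar.trans ?_
      have h6 : Real.log (R / ε) ≤ Real.log (R / H) := by
        apply Real.log_le_log (by have := hε.trans hR; positivity)
        gcongr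
        exact (hε.trans hR).le
      rw [hlog]
      gcongr
      linarith

end Vale.Agent.P141.R2.H152
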