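import Vale.Agent.P141.R2.H152.Alg
import Vale.Agent.P141.R2.H152.Final

/-!
# The operator with one function of the algebra
-/

namespace Vale.Agent.P141.R2.H152

open MeasureTheory Set Vale.Agent.P141.H97
open scoped ENNReal

section

variable {Ω : Type} [MeasurableSpace Ω] {G : Fin 3 → Ω × ℝ × ℝ × ℝ → ℂ} {H : ℝ}

/-- the structured function with the parameter `ω` -/
noncomputable def dw (H : ℝ) (G : Fin 3 → Ω × ℝ × ℝ × ℝ → ℂ) (ω : Ω) (x : ℝ) : ℂ :=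
  ((H ^ 3 : ℝ) : ℂ)⁻¹ * ∫ h in cube H, tri G ω x h

omit [MeasurableSpace Ω] in
theorem dw_eq (H : ℝ) (G : Fin 3 → Ω × ℝ × ℝ × ℝ → ℂ) (ω : Ω) : dw H G ω =
    dualFn H (fun z => G 0 (ω, z)) (fun z => G 1 (ω, z)) (fun z => G 2 (ω, z)) := rfl

theorem one_of (hm : ∀ i, Measurable (G i)) (h1 : ∀ i p, ‖G i p‖ ≤ 1) (i : Fin 3) (ω : Ω) :
    One fun z => G i (ω, z) := ⟨(hm i).comp measurable_prodMk_left, fun _ => h1 i _⟩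

theorem dw_meas (hm : ∀ i, Measurable (G i)) : Measurable fun p : Ω × ℝ => dw H G p.1 p.2 := by
  have m0 : Measurable fun q : (Ω × ℝ) × (ℝ × ℝ × ℝ) =>
      G 0 (q.1.1, q.1.2 + q.2.1, q.2.2.1, q.2.2.2) := (hm 0).comp (by fun_prop)
  have m1 : Measurable fun q : (Ω × ℝ) × (ℝ × ℝ × ℝ) =>
      G 1 (q.1.1, q.1.2 + q.2.2.1, q.2.1, q.2.2.2) := (hm 1).comp (by fun_prop)
  have m2 : Measurable fun q : (Ω × ℝ) × (ℝ × ℝ × ℝ) =>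
      G 2 (q.1.1, q.1.2 + q.2.2.2, q.2.1, q.2.2.1) := (hm 2).comp (by fun_prop)
  have m : Measurable fun q : (Ω × ℝ) × (ℝ × ℝ × ℝ) => tri G q.1.1 q.1.2 q.2 := (m0.mul m1).mul m2
  exact ((m.stronglyMeasurable.integral_prod_right'
    (ν := volume.restrict (cube H))).measurable).const_mul _

theorem dw_le (hH : 0 < H) (hm : ∀ i, Measurable (G i)) (h1 : ∀ i p, ‖G i p‖ ≤ 1) (ω : Ω) (x : ℝ) :
    ‖dw H G ω x‖ ≤ 1 := by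
  rw [dw_eq]
  exact dualFn_le hH (one_of hm h1 0 ω) (one_of hm h1 1 ω) (one_of hm h1 2 ω) x

end

variable {H M : ℝ} {D : ℝ → ℂ}

theorem Alg.meas (h : Alg H M D) : Measurable D := by
  obtain ⟨Ω, _, μ, G, hμ, hm, h1, hD⟩ := h
  have : IsFiniteMeasure μ := ⟨hμ.trans_lt ENNReal.ofReal_lt_top⟩
  have e : D = fun x => ∫ ω, dw H G ω x ∂μ := funext hD
  rw [e]
  exact ((dw_meas hm).comp measurable_swap).stronglyMeasurable.integral_prod_right'.measurable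

theorem Alg.le (hH : 0 < H) (hM : 0 ≤ M) (h : Alg H M D) (x : ℝ) : ‖D x‖ ≤ M := by
  obtain ⟨Ω, _, μ, G, hμ, hm, h1, hD⟩ := h
  have : IsFiniteMeasure μ := ⟨hμ.trans_lt ENNReal.ofReal_lt_top⟩
  rw [hD x]
  refine (norm_integral_le_of_norm_le_const (C := 1)
    (ae_of_all _ fun ω => dw_le hH hm h1 ω x)).trans ?_
  rw [one_mul]
  exact ENNReal.toReal_le_of_le_ofReal hM hμ

/-- the form bound for `R ≤ H` -/
theorem alg_near : ∃ C : ℝ, 0 ≤ C ∧ ∀ (H M c₁ c₂ c₃ : ℝ) (D : ℝ → ℂ),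
    0 < H → 0 ≤ M → c₁ ≠ 0 → c₂ ≠ 0 → c₃ ≠ 0 → c₂ ≠ c₃ → Alg H M D →
      ∀ ε R : ℝ, 0 < ε → ε < R → R ≤ H → FormBd D (M * (C * KK c₁ c₂ c₃)) ε R c₁ c₂ c₃ := by
  obtain ⟨C, hC0, hC⟩ := near
  refine ⟨C, hC0, fun H M c₁ c₂ c₃ D hH hM n₁ n₂ n₃ n h ε R hε hR hRH f₁ f₂ f₃ h₁ h₂ h₃ => ?_⟩
  obtain ⟨Ω, _, μ, G, hμ, hm, h1, hD⟩ := h
  have : IsFiniteMeasure μ := ⟨hμ.trans_lt ENNReal.ofReal_lt_top⟩
  set N := (eLpNorm f₁ 3 volume).toReal * (eLpNorm f₂ 3 volume).toReal *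
    (eLpNorm f₃ 3 volume).toReal with hN
  have hN0 : 0 ≤ N := by positivity
  have hK := KK_nonneg c₁ c₂ c₃
  have hph := ph_integrable (R := R) (c₁ := c₁) (c₂ := c₂) (c₃ := c₃) hε h₁ h₂ h₃
  have hdm : Measurable fun q : (ℝ × ℝ) × Ω => dw H G q.2 q.1.1 :=
    (dw_meas hm).comp (f := fun q : (ℝ × ℝ) × Ω => (q.2, q.1.1)) (by fun_prop)
  have hphm : Measurable fun q : (ℝ × ℝ) × Ω => ph ε R c₁ c₂ c₃ f₁ f₂ f₃ q.1.1 q.1.2 :=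
    (ph_meas h₁.meas h₂.meas h₃.meas).comp measurable_fst
  have hI : Integrable (fun q : (ℝ × ℝ) × Ω =>
      dw H G q.2 q.1.1 * ph ε R c₁ c₂ c₃ f₁ f₂ f₃ q.1.1 q.1.2) (volume.prod μ) := by
    have h5 : Integrable (fun q : (ℝ × ℝ) × Ω =>
        ph ε R c₁ c₂ c₃ f₁ f₂ f₃ q.1.1 q.1.2 * (1 : ℂ)) (volume.prod μ) :=
      hph.mul_prod (integrable_const (1 : ℂ))
    refine h5.mono (hdm.mul hphm).aestronglyMeasurable (ae_of_all _ fun q => ?_)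
    rw [norm_mul, norm_mul, norm_one, mul_one]
    exact mul_le_of_le_one_left (norm_nonneg _) (dw_le hH hm h1 _ _)
  have e1 : ∫ p : ℝ × ℝ, D p.1 * ph ε R c₁ c₂ c₃ f₁ f₂ f₃ p.1 p.2
      = ∫ p : ℝ × ℝ, ∫ ω, dw H G ω p.1 * ph ε R c₁ c₂ c₃ f₁ f₂ f₃ p.1 p.2 ∂μ := by
    congr 1
    funext p
    rw [integral_mul_const]
    congr 1
    exact hD p.1
  rw [e1, integral_integral_swap (f := fun (p : ℝ × ℝ) (ω : Ω) =>
    dw H G ω p.1 * ph ε R c₁ c₂ c₃ f₁ f₂ f₃ p.1 p.2) hI]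
  refine (norm_integral_le_of_norm_le_const (C := C * KK c₁ c₂ c₃ * N)
    (ae_of_all _ fun ω => ?_)).trans ?_
  · exact hC H c₁ c₂ c₃ _ _ _ hH n₁ n₂ n₃ n (one_of hm h1 0 ω) (one_of hm h1 1 ω)
      (one_of hm h1 2 ω) ε R hε hR hRH f₁ f₂ f₃ h₁ h₂ h₃
  · have h6 : μ.real univ ≤ M := ENNReal.toReal_le_of_le_ofReal hM hμ
    have h7 : 0 ≤ C * KK c₁ c₂ c₃ * N := by positivity
    calc C * KK c₁ c₂ c₃ * N * μ.real univ ≤ C * KK c₁ c₂ c₃ * N * M := by gcongr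
      _ = M * (C * KK c₁ c₂ c₃) * N := by ring

end Vale.Agent.P141.R2.H152
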