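import Vale.Agent.P141.R2.H305.AlgMul
import Vale.Agent.P141.R2.H152.AlgAdd
import Vale.Agent.P141.R2.H175.AlgOne

/-!
# Polynomials in functions of the algebra
-/

namespace Vale.Agent.P141.R2.H152

open MeasureTheory Set

theorem Alg.zero (H : ℝ) : Alg H 0 fun _ => 0 :=
  ⟨Unit, inferInstance, 0, fun _ _ => 0, by simp, fun _ => measurable_const, fun _ _ => by simp,
    fun x => by simp⟩

theorem Alg.one {H : ℝ} (hH : 0 < H) : Alg H 1 fun _ => 1 := by
  refine ⟨Unit, inferInstance, Measure.dirac (), fun _ _ => 1, by simp,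
    fun _ => measurable_const, fun _ _ => by simp, fun x => ?_⟩
  have hne : ((H : ℝ) : ℂ) ≠ 0 := by exact_mod_cast hH.ne'
  have hv : (volume : Measure (ℝ × ℝ × ℝ)).real (cube H) = H ^ 3 := by
    rw [measureReal_def, cube, Measure.volume_eq_prod, Measure.prod_prod, Measure.volume_eq_prod,
      Measure.prod_prod, Real.volume_Icc, sub_zero, ENNReal.toReal_mul, ENNReal.toReal_mul,
      ENNReal.toReal_ofReal hH.le]
    ring
  rw [integral_dirac]
  unfold tri
  rw [setIntegral_const, hv, Complex.real_smul]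
  push_cast
  field_simp

theorem Alg.prod {H : ℝ} (hH : 0 < H) : ∀ (k : ℕ) (S M : Fin k → ℝ) (D : Fin k → ℝ → ℂ),
    (∀ j, H ≤ S j) → (∀ j, 0 ≤ M j) → (∀ j, Alg (S j) (M j) (D j)) →
      Alg H (∏ j, (8 * M j)) fun x => ∏ j, D j x
  | 0, _, _, _, _, _, _ => by simpa using Alg.one hH
  | k + 1, S, M, D, hS, hM, h => by
    have h0 : 0 ≤ ∏ j : Fin k, (8 * M j.castSucc) :=
      Finset.prod_nonneg fun j _ => mul_nonneg (by norm_num) (hM _)
    have h1 := Alg.prod hH k (fun j => S j.castSucc) (fun j => M j.castSucc)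
      (fun j => D j.castSucc) (fun j => hS _) (fun j => hM _) (fun j => h _)
    have h2 := Alg.mul hH (hS (Fin.last k)) (hM (Fin.last k)) h0 h1 (h (Fin.last k))
    simp only [Fin.prod_univ_castSucc]
    convert h2 using 1
    ring

theorem Alg.sum {H : ℝ} : ∀ (n : ℕ) (M : Fin n → ℝ) (D : Fin n → ℝ → ℂ),
    (∀ j, 0 ≤ M j) → (∀ j, Alg H (M j) (D j)) → Alg H (∑ j, M j) fun x => ∑ j, D j x
  | 0, _, _, _, _ => by simpa using Alg.zero H
  | n + 1, M, D, hM, h => by
    have h0 : 0 ≤ ∑ j : Fin n, M j.castSucc := Finset.sum_nonneg fun j _ => hM _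
    have h1 := Alg.sum n (fun j => M j.castSucc) (fun j => D j.castSucc) (fun j => hM _)
      (fun j => h _)
    have h2 := Alg.add h0 (hM (Fin.last n)) h1 (h (Fin.last n))
    simp only [Fin.sum_univ_castSucc]
    exact h2

/-- polynomials in functions of the algebra of larger scales -/
theorem Alg.poly {H : ℝ} (hH : 0 < H) (n : ℕ) (c : Fin n → ℂ) (k : Fin n → ℕ)
    (S M : (i : Fin n) → Fin (k i) → ℝ) (D : (i : Fin n) → Fin (k i) → ℝ → ℂ)
    (hS : ∀ i j, H ≤ S i j) (hM : ∀ i j, 0 ≤ M i j) (h : ∀ i j, Alg (S i j) (M i j) (D i j)) :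
    Alg H (∑ i, ‖c i‖ * ∏ j, (8 * M i j)) fun x => ∑ i, c i * ∏ j, D i j x := by
  refine Alg.sum n _ _ (fun i => ?_) fun i => ?_
  · exact mul_nonneg (norm_nonneg _)
      (Finset.prod_nonneg fun j _ => mul_nonneg (by norm_num) (hM i j))
  · exact (Alg.prod hH (k i) (S i) (M i) (D i) (hS i) (hM i) (h i)).smul (c i)

end Vale.Agent.P141.R2.H152
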