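import Mathlib

/-!
# Linear changes of variables for the five-dimensional lift
-/

namespace Vale.Agent.P141.R2.H152

open MeasureTheory Set
open scoped ENNReal

/-- linear change of variables in the plane, lower integrals -/
theorem lin2L (A B C D : ℝ) (h : A * D - B * C ≠ 0) (v w : ℝ) (f : ℝ × ℝ → ℝ≥0∞) :
    ∫⁻ p : ℝ × ℝ, f (A * p.1 + B * p.2 + v, C * p.1 + D * p.2 + w)
      = ENNReal.ofReal |A * D - B * C|⁻¹ * ∫⁻ p, f p := by
  let L : ℝ × ℝ →ₗ[ℝ] ℝ × ℝ := Matrix.toLin (Module.Basis.finTwoProd ℝ)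
    (Module.Basis.finTwoProd ℝ) !![A, B; C, D]
  have hdet : LinearMap.det L = A * D - B * C := by
    simp [L, LinearMap.det_toLin, Matrix.det_fin_two_of]
  have hL : ∀ p, L p = (A * p.1 + B * p.2, C * p.1 + D * p.2) := by
    intro p
    simp [L, Matrix.toLin_finTwoProd_apply]
  have hd : LinearMap.det L ≠ 0 := by rw [hdet]; exact h
  have hmap := Measure.map_linearMap_addHaar_eq_smul_addHaar
    (μ := (volume : Measure (ℝ × ℝ))) hd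
  let e := (L.equivOfDetNeZero hd).toContinuousLinearEquiv.toHomeomorph.toMeasurableEquiv
  have he : ∀ p, e p = L p := fun p => rfl
  have h1 : ∫⁻ p : ℝ × ℝ, f (A * p.1 + B * p.2 + v, C * p.1 + D * p.2 + w)
      = ∫⁻ p : ℝ × ℝ, (fun q => f (q + (v, w))) (e p) := by
    congr 1
    funext p
    rw [he, hL]
    simp
  rw [h1, ← lintegral_map_equiv (fun q => f (q + (v, w))) e]
  have h2 : Measure.map (⇑e) (volume : Measure (ℝ × ℝ)) = Measure.map (⇑L) volume := rfl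
  rw [h2, hmap, lintegral_smul_measure, hdet, smul_eq_mul, abs_inv]
  congr 1
  exact lintegral_add_right_eq_self f (v, w)

theorem lin1L (κ c : ℝ) (hκ : κ ≠ 0) (f : ℝ → ℝ≥0∞) :
    ∫⁻ x, f (κ * x + c) = ENNReal.ofReal |κ|⁻¹ * ∫⁻ x, f x := by
  have h2 : ∫⁻ x, (fun y => f (y + c)) (κ * x)
      = ENNReal.ofReal |κ|⁻¹ * ∫⁻ x, f (x + c) := by
    have h3 := Real.map_volume_mul_left hκ
    have h4 := lintegral_map_equiv (μ := volume) (fun y => f (y + c))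
      (Homeomorph.mulLeft₀ κ hκ).toMeasurableEquiv
    have h5 : Measure.map (⇑(Homeomorph.mulLeft₀ κ hκ).toMeasurableEquiv) volume
        = Measure.map (fun x => κ * x) volume := rfl
    rw [h5, h3, lintegral_smul_measure] at h4
    rw [← abs_inv]
    exact h4.symm
  rw [← lintegral_add_right_eq_self f c, ← h2]

/-- the space of the lift -/
abbrev E5 : Type := (ℝ × ℝ) × (ℝ × (ℝ × ℝ))

/-- `((β,γ),(a,(b,c))) ↦ ((x,t),(h₁,(h₂,h₃)))` -/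
def T (c₁ c₂ c₃ : ℝ) (z : E5) : E5 :=
  ((c₂ * z.2.2.1 + c₃ * z.2.2.2 + c₁ * z.2.1, z.2.2.1 + z.2.2.2 + z.2.1),
    (-c₁ * z.2.1, (c₂ * (z.1.1 - z.2.2.1), c₃ * (z.1.2 - z.2.2.2))))

theorem T_meas (c₁ c₂ c₃ : ℝ) : Measurable (T c₁ c₂ c₃) := by
  unfold T
  fun_prop

variable {c₁ c₂ c₃ : ℝ}

/-- the Jacobian -/
noncomputable def jac (c₁ c₂ c₃ : ℝ) : ℝ := |c₁|⁻¹ * |c₂ - c₃|⁻¹ * |c₂ * c₃|⁻¹

theorem T_lint (h₁ : c₁ ≠ 0) (h₂ : c₂ ≠ 0) (h₃ : c₃ ≠ 0) (h : c₂ ≠ c₃) {F : E5 → ℝ≥0∞}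
    (hF : Measurable F) :
    ∫⁻ z, F (T c₁ c₂ c₃ z) = ENNReal.ofReal (jac c₁ c₂ c₃) * ∫⁻ z, F z := by
  -- the integral over the last two variables
  set K : ℝ × ℝ → ℝ → ℝ≥0∞ := fun xt h1 => ∫⁻ hh : ℝ × ℝ, F (xt, (h1, hh)) with hK
  have hKm : Measurable fun p : (ℝ × ℝ) × ℝ => K p.1 p.2 := by
    have : Measurable fun q : ((ℝ × ℝ) × ℝ) × (ℝ × ℝ) => F (q.1.1, (q.1.2, q.2)) :=
      hF.comp (by fun_prop)
    exact this.lintegral_prod_right'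
  have hKm1 : ∀ h1, Measurable fun xt => K xt h1 := fun h1 =>
    hKm.comp (measurable_id.prodMk measurable_const)
  have e1 : ∫⁻ z, F (T c₁ c₂ c₃ z) = ∫⁻ y : ℝ × (ℝ × ℝ), ENNReal.ofReal |c₂ * c₃|⁻¹ *
      K (c₂ * y.2.1 + c₃ * y.2.2 + c₁ * y.1, y.2.1 + y.2.2 + y.1) (-c₁ * y.1) := by
    have hFT : Measurable fun z => F (T c₁ c₂ c₃ z) := hF.comp (T_meas _ _ _)
    rw [Measure.volume_eq_prod, lintegral_prod_symm (fun z => F (T c₁ c₂ c₃ z)) hFT.aemeasurable]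
    refine lintegral_congr fun y => ?_
    have h5 : c₂ * c₃ - 0 * 0 ≠ 0 := by simpa using And.intro h₂ h₃
    have := lin2L c₂ 0 0 c₃ h5 (-(c₂ * y.2.1)) (-(c₃ * y.2.2)) (fun hh =>
      F ((c₂ * y.2.1 + c₃ * y.2.2 + c₁ * y.1, y.2.1 + y.2.2 + y.1), (-c₁ * y.1, hh)))
    rw [mul_zero, sub_zero] at this
    rw [hK, ← this]
    refine lintegral_congr fun x => ?_
    unfold T
    congr 4 <;> ring
  have m1 : Measurable fun y : ℝ × (ℝ × ℝ) =>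
      K (c₂ * y.2.1 + c₃ * y.2.2 + c₁ * y.1, y.2.1 + y.2.2 + y.1) (-c₁ * y.1) :=
    hKm.comp (f := fun y : ℝ × (ℝ × ℝ) =>
      (((c₂ * y.2.1 + c₃ * y.2.2 + c₁ * y.1, y.2.1 + y.2.2 + y.1), -c₁ * y.1) :
        (ℝ × ℝ) × ℝ)) (by fun_prop)
  have e2 : ∀ a : ℝ, ∫⁻ p : ℝ × ℝ, K (c₂ * p.1 + c₃ * p.2 + c₁ * a, p.1 + p.2 + a) (-c₁ * a)
      = ENNReal.ofReal |c₂ - c₃|⁻¹ * ∫⁻ xt, K xt (-c₁ * a) := by
    intro a
    have h5 : c₂ * 1 - c₃ * 1 ≠ 0 := by simpa using sub_ne_zero.2 h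
    have := lin2L c₂ c₃ 1 1 h5 (c₁ * a) a (fun xt => K xt (-c₁ * a))
    simp only [one_mul, mul_one] at this
    exact this
  have e3 : ∫⁻ a : ℝ, ∫⁻ xt, K xt (-c₁ * a)
      = ENNReal.ofReal |c₁|⁻¹ * ∫⁻ h1, ∫⁻ xt, K xt h1 := by
    have := lin1L (-c₁) 0 (neg_ne_zero.2 h₁) (fun h1 => ∫⁻ xt, K xt h1)
    simp only [add_zero, abs_neg] at this
    exact this
  have e4 : ∫⁻ z, F z = ∫⁻ h1, ∫⁻ xt, K xt h1 := by
    rw [Measure.volume_eq_prod, lintegral_prod _ hF.aemeasurable]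
    rw [lintegral_lintegral_swap (f := fun h1 xt => K xt h1)
      (hKm.comp measurable_swap).aemeasurable]
    refine lintegral_congr fun xt => ?_
    have hm2 : Measurable fun y : ℝ × (ℝ × ℝ) => F (xt, y) := hF.comp measurable_prodMk_left
    rw [Measure.volume_eq_prod, lintegral_prod _ hm2.aemeasurable]
  rw [e1, lintegral_const_mul _ m1, Measure.volume_eq_prod, lintegral_prod _ m1.aemeasurable]
  simp only [e2]
  rw [lintegral_const_mul' _ _ ENNReal.ofReal_ne_top, e3, e4, ← mul_assoc, ← mul_assoc]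
  congr 1
  unfold jac
  rw [ENNReal.ofReal_mul (by positivity), ENNReal.ofReal_mul (by positivity)]
  ring

theorem T_map (h₁ : c₁ ≠ 0) (h₂ : c₂ ≠ 0) (h₃ : c₃ ≠ 0) (h : c₂ ≠ c₃) :
    Measure.map (T c₁ c₂ c₃) volume = ENNReal.ofReal (jac c₁ c₂ c₃) • (volume : Measure E5) := by
  refine Measure.ext fun s hs => ?_
  rw [Measure.map_apply (T_meas _ _ _) hs, ← lintegral_indicator_one (T_meas _ _ _ hs),
    Measure.smul_apply, ← lintegral_indicator_one hs, smul_eq_mul,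
    ← T_lint h₁ h₂ h₃ h (measurable_one.indicator hs)]
  rfl

theorem T_integral (h₁ : c₁ ≠ 0) (h₂ : c₂ ≠ 0) (h₃ : c₃ ≠ 0) (h : c₂ ≠ c₃) {W : E5 → ℂ}
    (hW : Measurable W) :
    ∫ z, W (T c₁ c₂ c₃ z) = (jac c₁ c₂ c₃ : ℂ) * ∫ z, W z := by
  have h5 : 0 ≤ jac c₁ c₂ c₃ := by unfold jac; positivity
  rw [← integral_map (T_meas _ _ _).aemeasurable hW.aestronglyMeasurable, T_map h₁ h₂ h₃ h,
    integral_smul_measure, ENNReal.toReal_ofReal h5, Complex.real_smul]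

theorem T_integrable (h₁ : c₁ ≠ 0) (h₂ : c₂ ≠ 0) (h₃ : c₃ ≠ 0) (h : c₂ ≠ c₃) {W : E5 → ℂ}
    (hW : Measurable W) (hi : Integrable W) : Integrable fun z => W (T c₁ c₂ c₃ z) := by
  have h6 : Integrable W (Measure.map (T c₁ c₂ c₃) volume) := by
    rw [T_map h₁ h₂ h₃ h]
    exact hi.smul_measure ENNReal.ofReal_ne_top
  exact (integrable_map_measure hW.aestronglyMeasurable (T_meas _ _ _).aemeasurable).1 h6

end Vale.Agent.P141.R2.H152
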