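import Vale.Agent.P141.R2.H152.Nrm
import Vale.Agent.P141.H97.Dual
import Vale.Agent.Results.P075.TriangularHilbertReal

/-!
# The lift of the pairing with a structured function to triangular Hilbert forms
-/

namespace Vale.Agent.P141.R2.H152

open MeasureTheory Set Vale.Agent.P141.H97
open scoped ENNReal

/-- the structured function of scale `H` -/
noncomputable def dualFn (H : ℝ) (G₁ G₂ G₃ : ℝ × ℝ × ℝ → ℂ) (x : ℝ) : ℂ :=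
  ((H ^ 3 : ℝ) : ℂ)⁻¹ * ∫ h in Icc (0 : ℝ) H ×ˢ (Icc (0 : ℝ) H ×ˢ Icc (0 : ℝ) H),
    G₁ (x + h.1, h.2.1, h.2.2) * G₂ (x + h.2.1, h.1, h.2.2) * G₃ (x + h.2.2, h.1, h.2.1)

/-- measurable, bounded by one -/
structure One (G : ℝ × ℝ × ℝ → ℂ) : Prop where
  meas : Measurable G
  le : ∀ z, ‖G z‖ ≤ 1

/-- the indicator of `[0,H]`, complex -/
noncomputable def q (H : ℝ) : ℝ → ℂ := (Icc (0 : ℝ) H).indicator 1

theorem q_meas (H : ℝ) : Measurable (q H) := measurable_one.indicator measurableSet_Icc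

theorem q_sq (H x : ℝ) : q H x * q H x = q H x := by
  unfold q
  by_cases h : x ∈ Icc (0 : ℝ) H
  · simp [h]
  · simp [h]

theorem q_norm (H x : ℝ) : ‖q H x‖ₑ = qE H x := by
  unfold q qE
  by_cases h : x ∈ Icc (0 : ℝ) H
  · simp [h]
  · simp [h]

theorem q_int (H : ℝ) : Integrable (q H) :=
  (integrable_indicator_iff measurableSet_Icc).2
    (integrableOn_const (by rw [Real.volume_Icc]; exact ENNReal.ofReal_ne_top))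

theorem q_ne {H x : ℝ} (h : q H x ≠ 0) : 0 ≤ x ∧ x ≤ H := by
  by_contra hc
  have h2 : x ∉ Icc (0 : ℝ) H := fun h3 => hc ⟨h3.1, h3.2⟩
  exact h (indicator_of_notMem h2 _)

section

variable (ε R H c₁ c₂ c₃ : ℝ) (G₁ G₂ G₃ : ℝ × ℝ × ℝ → ℂ) (f₁ f₂ f₃ : ℝ → ℂ)

/-- the three structured factors -/
noncomputable def GG (x : ℝ) (h : ℝ × ℝ × ℝ) : ℂ :=
  G₁ (x + h.1, h.2.1, h.2.2) * G₂ (x + h.2.1, h.1, h.2.2) * G₃ (x + h.2.2, h.1, h.2.1)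

/-- the three cut-offs -/
noncomputable def qqq (h : ℝ × ℝ × ℝ) : ℂ := q H h.1 * (q H h.2.1 * q H h.2.2)

/-- the integrand on the space `((x,t),(h₁,(h₂,h₃)))` -/
noncomputable def Wf (z : E5) : ℂ :=
  ph ε R c₁ c₂ c₃ f₁ f₂ f₃ z.1.1 z.1.2 * (qqq H z.2 * GG G₁ G₂ G₃ z.1.1 z.2)

/-- the function of `(a,b)` -/
noncomputable def F3 (y p : ℝ × ℝ) : ℂ :=
  f₃ ((c₁ - c₃) * p.1 + (c₂ - c₃) * p.2) *
    (G₃ (c₁ * p.1 + c₂ * p.2 + c₃ * y.2, -c₁ * p.1, c₂ * (y.1 - p.2)) *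
    (q H (-c₁ * p.1) * q H (c₂ * (y.1 - p.2))))

/-- the function of `(b,c)` -/
noncomputable def F1 (y p : ℝ × ℝ) : ℂ :=
  f₁ ((c₂ - c₁) * p.1 + (c₃ - c₁) * p.2) *
    (G₁ (c₂ * p.1 + c₃ * p.2, c₂ * (y.1 - p.1), c₃ * (y.2 - p.2)) *
    (q H (c₂ * (y.1 - p.1)) * q H (c₃ * (y.2 - p.2))))

/-- the function of `(c,a)` -/
noncomputable def F2 (y p : ℝ × ℝ) : ℂ :=
  f₂ ((c₁ - c₂) * p.2 + (c₃ - c₂) * p.1) *
    (G₂ (c₁ * p.2 + c₂ * y.1 + c₃ * p.1, -c₁ * p.2, c₃ * (y.2 - p.1)) *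
    (q H (-c₁ * p.2) * q H (c₃ * (y.2 - p.1))))

/-- the triangular integrand -/
noncomputable def Tri (y : ℝ × ℝ) (x : ℝ × ℝ × ℝ) : ℂ :=
  F3 H c₁ c₂ c₃ G₃ f₃ y (x.1, x.2.1) * F1 H c₁ c₂ c₃ G₁ f₁ y (x.2.1, x.2.2) *
    F2 H c₁ c₂ c₃ G₂ f₂ y (x.2.2, x.1) * uu ε R (x.1 + x.2.1 + x.2.2)

end

variable {ε R H c₁ c₂ c₃ : ℝ} {G₁ G₂ G₃ : ℝ × ℝ × ℝ → ℂ} {f₁ f₂ f₃ : ℝ → ℂ}

theorem Wf_T (z : E5) : Wf ε R H c₁ c₂ c₃ G₁ G₂ G₃ f₁ f₂ f₃ (T c₁ c₂ c₃ z)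
    = Tri ε R H c₁ c₂ c₃ G₁ G₂ G₃ f₁ f₂ f₃ z.1 z.2 := by
  obtain ⟨⟨β, γ⟩, a, b, c⟩ := z
  unfold Wf Tri F3 F1 F2 T qqq GG ph FF
  simp only
  have e1 : c₂ * b + c₃ * c + c₁ * a - c₁ * (b + c + a) = (c₂ - c₁) * b + (c₃ - c₁) * c := by ring
  have e2 : c₂ * b + c₃ * c + c₁ * a - c₂ * (b + c + a) = (c₁ - c₂) * a + (c₃ - c₂) * c := by ring
  have e3 : c₂ * b + c₃ * c + c₁ * a - c₃ * (b + c + a) = (c₁ - c₃) * a + (c₂ - c₃) * b := by ring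
  have e4 : c₂ * b + c₃ * c + c₁ * a + -c₁ * a = c₂ * b + c₃ * c := by ring
  have e5 : c₂ * b + c₃ * c + c₁ * a + c₂ * (β - b) = c₁ * a + c₂ * β + c₃ * c := by ring
  have e6 : c₂ * b + c₃ * c + c₁ * a + c₃ * (γ - c) = c₁ * a + c₂ * b + c₃ * γ := by ring
  have e7 : b + c + a = a + b + c := by ring
  rw [e1, e2, e3, e4, e5, e6, e7]
  have s1 := q_sq H (-c₁ * a)
  have s2 := q_sq H (c₂ * (β - b))
  have s3 := q_sq H (c₃ * (γ - c))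
  generalize q H (-c₁ * a) = x1 at *
  generalize q H (c₂ * (β - b)) = x2 at *
  generalize q H (c₃ * (γ - c)) = x3 at *
  generalize f₁ _ = y1
  generalize f₂ _ = y2
  generalize f₃ _ = y3
  generalize G₁ _ = z1
  generalize G₂ _ = z2
  generalize G₃ _ = z3
  generalize uu ε R _ = w
  calc w * (y1 * y2 * y3) * (x1 * (x2 * x3) * (z1 * z2 * z3))
      = w * (y1 * y2 * y3) * ((x1 * x1) * ((x2 * x2) * (x3 * x3)) * (z1 * z2 * z3)) := by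
        rw [s1, s2, s3]
    _ = _ := by ring

theorem GG_meas (g₁ : One G₁) (g₂ : One G₂) (g₃ : One G₃) :
    Measurable fun z : E5 => GG G₁ G₂ G₃ z.1.1 z.2 := by
  have m1 : Measurable fun z : E5 => G₁ (z.1.1 + z.2.1, z.2.2.1, z.2.2.2) :=
    g₁.meas.comp (by fun_prop)
  have m2 : Measurable fun z : E5 => G₂ (z.1.1 + z.2.2.1, z.2.1, z.2.2.2) :=
    g₂.meas.comp (by fun_prop)
  have m3 : Measurable fun z : E5 => G₃ (z.1.1 + z.2.2.2, z.2.1, z.2.2.1) :=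
    g₃.meas.comp (by fun_prop)
  exact (m1.mul m2).mul m3

theorem GG_le (g₁ : One G₁) (g₂ : One G₂) (g₃ : One G₃) (x : ℝ) (h : ℝ × ℝ × ℝ) :
    ‖GG G₁ G₂ G₃ x h‖ ≤ 1 := by
  unfold GG
  rw [norm_mul, norm_mul]
  have a1 := g₁.le (x + h.1, h.2.1, h.2.2)
  have a2 := g₂.le (x + h.2.1, h.1, h.2.2)
  have a3 := g₃.le (x + h.2.2, h.1, h.2.1)
  have b1 := norm_nonneg (G₁ (x + h.1, h.2.1, h.2.2))
  have b2 := norm_nonneg (G₂ (x + h.2.1, h.1, h.2.2))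
  have b3 := norm_nonneg (G₃ (x + h.2.2, h.1, h.2.1))
  exact mul_le_one₀ (mul_le_one₀ a1 b2 a2) b3 a3

theorem qqq_meas (H : ℝ) : Measurable (qqq H) :=
  ((q_meas H).comp measurable_fst).mul
    (((q_meas H).comp (measurable_fst.comp measurable_snd)).mul
      ((q_meas H).comp (measurable_snd.comp measurable_snd)))

theorem qqq_int (H : ℝ) : Integrable (qqq H) := by
  have h1 : Integrable (fun p : ℝ × ℝ => q H p.1 * q H p.2) volume := by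
    rw [Measure.volume_eq_prod]; exact (q_int H).mul_prod (q_int H)
  rw [Measure.volume_eq_prod]
  exact (q_int H).mul_prod h1

theorem Wf_meas (g₁ : One G₁) (g₂ : One G₂) (g₃ : One G₃) (h₁ : Nice f₁) (h₂ : Nice f₂)
    (h₃ : Nice f₃) : Measurable (Wf ε R H c₁ c₂ c₃ G₁ G₂ G₃ f₁ f₂ f₃) :=
  ((ph_meas h₁.meas h₂.meas h₃.meas).comp measurable_fst).mul
    (((qqq_meas H).comp measurable_snd).mul (GG_meas g₁ g₂ g₃))

theorem ph_integrable (hε : 0 < ε) (h₁ : Nice f₁) (h₂ : Nice f₂) (h₃ : Nice f₃) :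
    Integrable (fun p : ℝ × ℝ => ph ε R c₁ c₂ c₃ f₁ f₂ f₃ p.1 p.2) volume := by
  obtain ⟨B₂, hB₂⟩ := h₂.bdd
  obtain ⟨B₃, hB₃⟩ := h₃.bdd
  have hB₂0 : 0 ≤ B₂ := (norm_nonneg _).trans (hB₂ 0)
  have hB₃0 : 0 ≤ B₃ := (norm_nonneg _).trans (hB₃ 0)
  have hψ : Integrable (fun t => (B₂ * B₃) * av ε R t) volume := (av_int hε).const_mul _
  have key := int_shift (ν := (volume : Measure ℝ)) h₁ (s := fun t => c₁ * t)
    (measurable_const.mul measurable_id) hψ (measurable_const.mul (av_meas ε R))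
  rw [← Measure.volume_eq_prod] at key
  refine key.mono' (ph_meas h₁.meas h₂.meas h₃.meas).aestronglyMeasurable
    (ae_of_all _ fun p => ?_)
  unfold ph FF
  rw [norm_mul, norm_mul, norm_mul, uu_norm]
  have a1 := av_nonneg ε R p.2
  have a2 := hB₂ (p.1 - c₂ * p.2)
  have a3 := hB₃ (p.1 - c₃ * p.2)
  calc av ε R p.2 * (‖f₁ (p.1 - c₁ * p.2)‖ * ‖f₂ (p.1 - c₂ * p.2)‖ * ‖f₃ (p.1 - c₃ * p.2)‖)
      ≤ av ε R p.2 * (‖f₁ (p.1 - c₁ * p.2)‖ * B₂ * B₃) := by gcongr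
    _ = _ := by ring

theorem Wf_int (hε : 0 < ε) (g₁ : One G₁) (g₂ : One G₂) (g₃ : One G₃) (h₁ : Nice f₁)
    (h₂ : Nice f₂) (h₃ : Nice f₃) :
    Integrable (Wf ε R H c₁ c₂ c₃ G₁ G₂ G₃ f₁ f₂ f₃) volume := by
  have h5 := (ph_integrable (R := R) (c₁ := c₁) (c₂ := c₂) (c₃ := c₃) hε h₁ h₂ h₃).mul_prod
    (qqq_int H)
  rw [← Measure.volume_eq_prod] at h5
  refine h5.mono (Wf_meas g₁ g₂ g₃ h₁ h₂ h₃).aestronglyMeasurable (ae_of_all _ fun z => ?_)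
  unfold Wf
  rw [norm_mul, norm_mul, norm_mul]
  refine mul_le_mul_of_nonneg_left ?_ (norm_nonneg _)
  exact mul_le_of_le_one_right (norm_nonneg _) (GG_le g₁ g₂ g₃ _ _)

/-- the integral of the product function is the pairing -/
theorem Wf_eq (hε : 0 < ε) (hH : 0 < H) (g₁ : One G₁) (g₂ : One G₂) (g₃ : One G₃) (h₁ : Nice f₁)
    (h₂ : Nice f₂) (h₃ : Nice f₃) :
    ∫ z, Wf ε R H c₁ c₂ c₃ G₁ G₂ G₃ f₁ f₂ f₃ z = ((H ^ 3 : ℝ) : ℂ) *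
      ∫ p : ℝ × ℝ, dualFn H G₁ G₂ G₃ p.1 * ph ε R c₁ c₂ c₃ f₁ f₂ f₃ p.1 p.2 := by
  have hI := Wf_int (R := R) (H := H) (c₁ := c₁) (c₂ := c₂) (c₃ := c₃) hε g₁ g₂ g₃ h₁ h₂ h₃
  rw [Measure.volume_eq_prod] at hI ⊢
  rw [integral_prod _ hI, ← integral_const_mul]
  congr 1
  funext p
  show ∫ y : ℝ × ℝ × ℝ, ph ε R c₁ c₂ c₃ f₁ f₂ f₃ p.1 p.2 * (qqq H y * GG G₁ G₂ G₃ p.1 y) = _
  rw [integral_const_mul]
  have hH3 : ((H ^ 3 : ℝ) : ℂ) ≠ 0 := by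
    exact_mod_cast (pow_pos hH 3).ne'
  have e1 : ∫ y : ℝ × ℝ × ℝ, qqq H y * GG G₁ G₂ G₃ p.1 y
      = ∫ h in Icc (0 : ℝ) H ×ˢ (Icc (0 : ℝ) H ×ˢ Icc (0 : ℝ) H), GG G₁ G₂ G₃ p.1 h := by
    rw [← integral_indicator (measurableSet_Icc.prod (measurableSet_Icc.prod measurableSet_Icc))]
    congr 1
    funext y
    unfold qqq q
    by_cases a1 : y.1 ∈ Icc (0 : ℝ) H
    · by_cases a2 : y.2.1 ∈ Icc (0 : ℝ) H
      · by_cases a3 : y.2.2 ∈ Icc (0 : ℝ) H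
        · rw [indicator_of_mem a1, indicator_of_mem a2, indicator_of_mem a3,
            indicator_of_mem (show y ∈ Icc (0 : ℝ) H ×ˢ (Icc (0 : ℝ) H ×ˢ Icc (0 : ℝ) H) from
              ⟨a1, a2, a3⟩)]
          simp
        · rw [indicator_of_notMem a3, indicator_of_notMem
            (show y ∉ Icc (0 : ℝ) H ×ˢ (Icc (0 : ℝ) H ×ˢ Icc (0 : ℝ) H) from
              fun hc => a3 hc.2.2)]
          simp
      · rw [indicator_of_notMem a2, indicator_of_notMem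
            (show y ∉ Icc (0 : ℝ) H ×ˢ (Icc (0 : ℝ) H ×ˢ Icc (0 : ℝ) H) from
              fun hc => a2 hc.2.1)]
        simp
    · rw [indicator_of_notMem a1, indicator_of_notMem
            (show y ∉ Icc (0 : ℝ) H ×ˢ (Icc (0 : ℝ) H ×ˢ Icc (0 : ℝ) H) from
              fun hc => a1 hc.1)]
      simp
  rw [e1]
  unfold dualFn
  unfold GG
  rw [← mul_assoc, ← mul_assoc, mul_inv_cancel₀ hH3, one_mul]
  ring

/-- the pairing as an integral of triangular forms -/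
theorem pair_eq (hε : 0 < ε) (hH : 0 < H) (n₁ : c₁ ≠ 0) (n₂ : c₂ ≠ 0) (n₃ : c₃ ≠ 0)
    (n : c₂ ≠ c₃) (g₁ : One G₁) (g₂ : One G₂) (g₃ : One G₃) (h₁ : Nice f₁)
    (h₂ : Nice f₂) (h₃ : Nice f₃) :
    ((jac c₁ c₂ c₃ : ℝ) : ℂ) * (((H ^ 3 : ℝ) : ℂ) *
      ∫ p : ℝ × ℝ, dualFn H G₁ G₂ G₃ p.1 * ph ε R c₁ c₂ c₃ f₁ f₂ f₃ p.1 p.2)
      = ∫ y : ℝ × ℝ, ∫ x : ℝ × ℝ × ℝ, Tri ε R H c₁ c₂ c₃ G₁ G₂ G₃ f₁ f₂ f₃ y x := by
  have hm := Wf_meas (ε := ε) (R := R) (H := H) (c₁ := c₁) (c₂ := c₂) (c₃ := c₃) g₁ g₂ g₃ h₁ h₂ h₃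
  have hI := Wf_int (R := R) (H := H) (c₁ := c₁) (c₂ := c₂) (c₃ := c₃) hε g₁ g₂ g₃ h₁ h₂ h₃
  rw [← Wf_eq hε hH g₁ g₂ g₃ h₁ h₂ h₃, ← T_integral n₁ n₂ n₃ n hm]
  have hJ := T_integrable n₁ n₂ n₃ n hm hI
  simp only [Wf_T] at hJ ⊢
  rw [Measure.volume_eq_prod] at hJ ⊢
  rw [integral_prod _ hJ]

end Vale.Agent.P141.R2.H152
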