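import Vale.Agent.P141.R2.H152.AlgForm

/-!
# Near part and far part for a bounded function with form bounds
-/

namespace Vale.Agent.P141.R2.H152

open MeasureTheory Set Vale.Agent.P141.H97
open scoped ENNReal

variable {D : ℝ → ℂ} {H A c₁ c₂ c₃ α₁ α₂ α₃ : ℝ}

theorem pair_of (hm : Measurable D) (hb : ∀ x, ‖D x‖ ≤ 1) (hH : 0 < H) (hA : 0 ≤ A)
    (hC : ∀ ε R : ℝ, 0 < ε → ε < R → R ≤ H → FormBd D A ε R c₁ c₂ c₃)
    {f₁ f₂ f₃ : ℝ → ℂ} (h₁ : Nice f₁) (h₂ : Nice f₂) (h₃ : Nice f₃) {ε R : ℝ} (hε : 0 < ε)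
    (hR : ε < R) :
    ‖∫ x, D x * TT ε R c₁ c₂ c₃ f₁ f₂ f₃ x‖ ≤
      (A + 2 * Real.posLog (R / H)) * ((eLpNorm f₁ 3 volume).toReal *
        (eLpNorm f₂ 3 volume).toReal * (eLpNorm f₃ 3 volume).toReal) := by
  have hL : 0 ≤ Real.posLog (R / H) := Real.posLog_nonneg
  set N := (eLpNorm f₁ 3 volume).toReal * (eLpNorm f₂ 3 volume).toReal *
    (eLpNorm f₃ 3 volume).toReal with hN
  have hN0 : 0 ≤ N := by positivity
  rcases le_or_gt R H with hRH | hRH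
  · have h := pairing hm hb hε (hC ε R hε hR hRH) h₁ h₂ h₃
    refine h.trans (mul_le_mul_of_nonneg_right (by linarith) hN0)
  · have hlog : Real.posLog (R / H) = Real.log (R / H) :=
      Real.posLog_eq_log (by
        rw [abs_of_pos (div_pos (hε.trans hR) hH)]; exact (one_le_div hH).2 hRH.le)
    rcases lt_or_ge ε H with hεH | hεH
    · have hnear := pairing hm hb hε (hC ε H hε hεH le_rfl) h₁ h₂ h₃
      have hfar := far_pair (α₁ := c₁) (α₂ := c₂) (α₃ := c₃) hm hb hH hRH h₁ h₂ h₃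
      obtain ⟨B₁, hB₁⟩ := h₁.bdd
      obtain ⟨B₂, hB₂⟩ := h₂.bdd
      obtain ⟨B₃, hB₃⟩ := h₃.bdd
      have e : ∀ x, TT ε R c₁ c₂ c₃ f₁ f₂ f₃ x
          = TT ε H c₁ c₂ c₃ f₁ f₂ f₃ x + TT H R c₁ c₂ c₃ f₁ f₂ f₃ x := fun x =>
        TT_split h₁.meas h₂.meas h₃.meas hB₁ hB₂ hB₃ hε hεH hRH x
      have i : ∀ a b : ℝ, 0 < a → Integrable fun x => D x * TT a b c₁ c₂ c₃ f₁ f₂ f₃ x := by
        intro a b ha
        have i0 := (ph_integrable (R := b) (c₁ := c₁) (c₂ := c₂) (c₃ := c₃) ha h₁ h₂ h₃)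
        rw [Measure.volume_eq_prod] at i0
        have i1 : Integrable fun x => TT a b c₁ c₂ c₃ f₁ f₂ f₃ x := i0.integral_prod_left
        exact i1.bdd_mul hm.aestronglyMeasurable (ae_of_all _ hb)
      simp only [e, mul_add]
      rw [integral_add (i ε H hε) (i H R hH)]
      refine (norm_add_le _ _).trans ((add_le_add hnear hfar).trans (le_of_eq ?_))
      rw [hlog, hN]
      ring
    · have hfar := far_pair (α₁ := c₁) (α₂ := c₂) (α₃ := c₃) hm hb hε hR h₁ h₂ h₃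
      refine hfar.trans (mul_le_mul_of_nonneg_right ?_ hN0)
      have h6 : Real.log (R / ε) ≤ Real.log (R / H) := by
        apply Real.log_le_log (by have := hε.trans hR; positivity)
        gcongr
        exact (hε.trans hR).le
      rw [hlog]
      linarith

theorem op_of (hm : Measurable D) (hb : ∀ x, ‖D x‖ ≤ 1) (hH : 0 < H) (hA : 0 ≤ A)
    (hC : ∀ ε R : ℝ, 0 < ε → ε < R → R ≤ H → FormBd D A ε R (-α₁) (α₂ - α₁) (α₃ - α₁))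
    {f₂ f₃ : ℝ → ℂ} (h₂ : Nice f₂) (h₃ : Nice f₃) {ε R : ℝ} (hε : 0 < ε) (hR : ε < R) :
    eLpNorm (TT ε R α₁ α₂ α₃ D f₂ f₃) (3 / 2) volume ≤
      ENNReal.ofReal (A + 2 * Real.posLog (R / H)) *
        eLpNorm f₂ 3 volume * eLpNorm f₃ 3 volume := by
  have hL : 0 ≤ Real.posLog (R / H) := Real.posLog_nonneg
  have hnear : ∀ ε' R' : ℝ, 0 < ε' → ε' < R' → R' ≤ H →
      eLpNorm (TT ε' R' α₁ α₂ α₃ D f₂ f₃) (3 / 2) volume ≤
        ENNReal.ofReal A * eLpNorm f₂ 3 volume * eLpNorm f₃ 3 volume := by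
    intro ε' R' h1 h2 h3
    exact oper hm hb hA h1 (hC ε' R' h1 h2 h3) h₂ h₃
  rcases le_or_gt R H with hRH | hRH
  · refine (hnear ε R hε hR hRH).trans ?_
    gcongr
    linarith
  · have hlog : Real.posLog (R / H) = Real.log (R / H) :=
      Real.posLog_eq_log (by
        rw [abs_of_pos (div_pos (hε.trans hR) hH)]; exact (one_le_div hH).2 hRH.le)
    rcases lt_or_ge ε H with hεH | hεH
    · have hfar := far (α₁ := α₁) (α₂ := α₂) (α₃ := α₃) hm hb hH hRH h₂ h₃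
      obtain ⟨B₂, hB₂⟩ := h₂.bdd
      obtain ⟨B₃, hB₃⟩ := h₃.bdd
      have e : TT ε R α₁ α₂ α₃ D f₂ f₃
          = TT ε H α₁ α₂ α₃ D f₂ f₃ + TT H R α₁ α₂ α₃ D f₂ f₃ :=
        funext fun x => TT_split hm h₂.meas h₃.meas hb hB₂ hB₃ hε hεH hRH x
      have m : ∀ a b : ℝ, Measurable (TT a b α₁ α₂ α₃ D f₂ f₃) := fun a b =>
        ((ph_meas hm h₂.meas h₃.meas).stronglyMeasurable.integral_prod_right'
          (ν := volume)).measurable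
      rw [e]
      refine (eLpNorm_add_le (m ε H).aestronglyMeasurable (m H R).aestronglyMeasurable
        ?_).trans ((add_le_add (hnear ε H hε hεH le_rfl) hfar).trans (le_of_eq ?_))
      · rw [← ENNReal.toReal_le_toReal (by simp) (by simp [ENNReal.div_eq_top])]
        norm_num
      · rw [hlog, ENNReal.ofReal_add hA (by rw [← hlog]; positivity)]
        ring
    · have hfar := far (α₁ := α₁) (α₂ := α₂) (α₃ := α₃) hm hb hε hR h₂ h₃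
      refine hfar.trans ?_
      have h6 : Real.log (R / ε) ≤ Real.log (R / H) := by
        apply Real.log_le_log (by have := hε.trans hR; positivity)
        gcongr
        exact (hε.trans hR).le
      rw [hlog]
      gcongr
      linarith

theorem FormBd.smul {ε R : ℝ} (c : ℂ) (h : FormBd D A ε R c₁ c₂ c₃) :
    FormBd (fun x => c * D x) (‖c‖ * A) ε R c₁ c₂ c₃ := by
  intro f₁ f₂ f₃ h₁ h₂ h₃
  have e : ∫ p : ℝ × ℝ, (c * D p.1) * ph ε R c₁ c₂ c₃ f₁ f₂ f₃ p.1 p.2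
      = c * ∫ p : ℝ × ℝ, D p.1 * ph ε R c₁ c₂ c₃ f₁ f₂ f₃ p.1 p.2 := by
    rw [← integral_const_mul]
    congr 1
    funext p
    ring
  rw [e, norm_mul, mul_assoc]
  exact mul_le_mul_of_nonneg_left (h f₁ f₂ f₃ h₁ h₂ h₃) (norm_nonneg _)

theorem TT_smul (ε R α₁ α₂ α₃ : ℝ) (c : ℂ) (f₁ f₂ f₃ : ℝ → ℂ) :
    TT ε R α₁ α₂ α₃ (fun x => c * f₁ x) f₂ f₃ = fun x => c * TT ε R α₁ α₂ α₃ f₁ f₂ f₃ x := by
  funext x
  unfold TT ph FF
  rw [← integral_const_mul]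
  congr 1
  funext t
  ring

/-- **the pairing with a function of the algebra** -/
theorem alg_pair : ∃ C : ℝ, 0 ≤ C ∧ ∀ (H M c₁ c₂ c₃ : ℝ) (D : ℝ → ℂ),
    0 < H → 0 < M → c₁ ≠ 0 → c₂ ≠ 0 → c₃ ≠ 0 → c₂ ≠ c₃ → Alg H M D →
      ∀ f₁ f₂ f₃ : ℝ → ℂ, Nice f₁ → Nice f₂ → Nice f₃ → ∀ ε R : ℝ, 0 < ε → ε < R →
        ‖∫ x, D x * TT ε R c₁ c₂ c₃ f₁ f₂ f₃ x‖ ≤
          M * (C * KK c₁ c₂ c₃ + 2 * Real.posLog (R / H)) * ((eLpNorm f₁ 3 volume).toReal *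
            (eLpNorm f₂ 3 volume).toReal * (eLpNorm f₃ 3 volume).toReal) := by
  obtain ⟨C, hC0, hC⟩ := alg_near
  refine ⟨C, hC0, fun H M c₁ c₂ c₃ D hH hM n₁ n₂ n₃ n h f₁ f₂ f₃ h₁ h₂ h₃ ε R hε hR => ?_⟩
  have hMn : ‖((M : ℝ) : ℂ)⁻¹‖ = M⁻¹ := by
    rw [norm_inv, Complex.norm_real, Real.norm_of_nonneg hM.le]
  have hMc : ((M : ℝ) : ℂ) ≠ 0 := by exact_mod_cast hM.ne'
  have hK := KK_nonneg c₁ c₂ c₃
  have key := pair_of (D := fun x => ((M : ℝ) : ℂ)⁻¹ * D x) (H := H) (A := C * KK c₁ c₂ c₃)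
    (c₁ := c₁) (c₂ := c₂) (c₃ := c₃) (h.meas.const_mul _) (fun x => by
      rw [norm_mul, hMn, ← div_eq_inv_mul, div_le_one hM]
      exact h.le hH hM.le x) hH (by positivity) (fun ε' R' a1 a2 a3 => by
      have := (hC H M c₁ c₂ c₃ D hH hM.le n₁ n₂ n₃ n h ε' R' a1 a2 a3).smul ((M : ℝ) : ℂ)⁻¹
      rwa [hMn, inv_mul_cancel_left₀ hM.ne'] at this) h₁ h₂ h₃ hε hR
  have e : ∫ x, D x * TT ε R c₁ c₂ c₃ f₁ f₂ f₃ x = ((M : ℝ) : ℂ) *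
      ∫ x, (((M : ℝ) : ℂ)⁻¹ * D x) * TT ε R c₁ c₂ c₃ f₁ f₂ f₃ x := by
    rw [← integral_const_mul]
    congr 1
    funext x
    field_simp
  rw [e, norm_mul, Complex.norm_real, Real.norm_of_nonneg hM.le, mul_assoc]
  exact mul_le_mul_of_nonneg_left key hM.le

/-- **the operator with a function of the algebra** -/
theorem alg_op : ∃ C : ℝ, 0 ≤ C ∧ ∀ (H M α₁ α₂ α₃ : ℝ) (D : ℝ → ℂ),
    0 < H → 0 < M → α₁ ≠ 0 → α₂ ≠ α₁ → α₃ ≠ α₁ → α₂ ≠ α₃ → Alg H M D →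
      ∀ f₂ f₃ : ℝ → ℂ, Nice f₂ → Nice f₃ → ∀ ε R : ℝ, 0 < ε → ε < R →
        eLpNorm (TT ε R α₁ α₂ α₃ D f₂ f₃) (3 / 2) volume ≤
          ENNReal.ofReal (M * (C * KK α₁ (α₂ - α₁) (α₃ - α₁) + 2 * Real.posLog (R / H))) *
            eLpNorm f₂ 3 volume * eLpNorm f₃ 3 volume := by
  obtain ⟨C, hC0, hC⟩ := alg_near
  refine ⟨C, hC0, fun H M α₁ α₂ α₃ D hH hM n₁ n₂ n₃ n h f₂ f₃ h₂ h₃ ε R hε hR => ?_⟩
  have hMn : ‖((M : ℝ) : ℂ)⁻¹‖ = M⁻¹ := by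
    rw [norm_inv, Complex.norm_real, Real.norm_of_nonneg hM.le]
  have hMc : ((M : ℝ) : ℂ) ≠ 0 := by exact_mod_cast hM.ne'
  have hK := KK_nonneg α₁ (α₂ - α₁) (α₃ - α₁)
  have hKe : KK (-α₁) (α₂ - α₁) (α₃ - α₁) = KK α₁ (α₂ - α₁) (α₃ - α₁) := by
    unfold KK
    rw [abs_neg, neg_mul, neg_mul, abs_neg]
  have key := op_of (D := fun x => ((M : ℝ) : ℂ)⁻¹ * D x) (H := H)
    (A := C * KK α₁ (α₂ - α₁) (α₃ - α₁)) (α₁ := α₁) (α₂ := α₂) (α₃ := α₃)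
    (h.meas.const_mul _) (fun x => by
      rw [norm_mul, hMn, ← div_eq_inv_mul, div_le_one hM]
      exact h.le hH hM.le x) hH (by positivity) (fun ε' R' a1 a2 a3 => by
      have := (hC H M (-α₁) (α₂ - α₁) (α₃ - α₁) D hH hM.le (neg_ne_zero.2 n₁)
        (sub_ne_zero.2 n₂) (sub_ne_zero.2 n₃) (fun h => n (by linarith)) h ε' R' a1 a2 a3).smul
        ((M : ℝ) : ℂ)⁻¹
      rwa [hMn, inv_mul_cancel_left₀ hM.ne', hKe] at this) h₂ h₃ hε hR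
  have e : TT ε R α₁ α₂ α₃ D f₂ f₃ =
      (((M : ℝ) : ℂ) • TT ε R α₁ α₂ α₃ (fun x => ((M : ℝ) : ℂ)⁻¹ * D x) f₂ f₃) := by
    have e0 : D = fun x => ((M : ℝ) : ℂ) * (((M : ℝ) : ℂ)⁻¹ * D x) := by
      funext x
      field_simp
    conv_lhs => rw [e0]
    rw [TT_smul]
    rfl
  rw [e, eLpNorm_const_smul]
  have hMe : ‖((M : ℝ) : ℂ)‖ₑ = ENNReal.ofReal M := by
    rw [← ofReal_norm, Complex.norm_real, Real.norm_of_nonneg hM.le]
  rw [hMe, ENNReal.ofReal_mul hM.le]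
  calc ENNReal.ofReal M * eLpNorm (TT ε R α₁ α₂ α₃ (fun x => ((M : ℝ) : ℂ)⁻¹ * D x) f₂ f₃)
        (3 / 2) volume
      ≤ ENNReal.ofReal M * (ENNReal.ofReal (C * KK α₁ (α₂ - α₁) (α₃ - α₁) +
        2 * Real.posLog (R / H)) * eLpNorm f₂ 3 volume * eLpNorm f₃ 3 volume) := by gcongr
    _ = _ := by ring

end Vale.Agent.P141.R2.H152
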