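import Vale.Agent.P141.R2.H152.Chg

/-!
# Integrals of localised ridge functions
-/

namespace Vale.Agent.P141.R2.H152

open MeasureTheory Set
open scoped ENNReal

/-- the indicator of `[0,H]` -/
noncomputable def qE (H : ℝ) : ℝ → ℝ≥0∞ := (Icc (0 : ℝ) H).indicator 1

theorem qE_meas (H : ℝ) : Measurable (qE H) := measurable_one.indicator measurableSet_Icc

theorem qE_int (H : ℝ) {d : ℝ} (hd : d ≠ 0) (c : ℝ) :
    ∫⁻ x, qE H (d * x + c) = ENNReal.ofReal |d|⁻¹ * ENNReal.ofReal H := by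
  rw [lin1L d c hd (qE H)]
  unfold qE
  rw [lintegral_indicator_one measurableSet_Icc, Real.volume_Icc, sub_zero]

/-- the strip -/
def St (W : ℝ) : Set (ℝ × ℝ) := {y | |y.1 + y.2| < W}

theorem St_meas (W : ℝ) : MeasurableSet (St W) :=
  measurableSet_lt (measurable_fst.add measurable_snd).abs measurable_const

theorem strip_int (W b : ℝ) :
    ∫⁻ y : ℝ, (St W).indicator (1 : ℝ × ℝ → ℝ≥0∞) (b, y) = ENNReal.ofReal (2 * W) := by
  have h : (fun y : ℝ => (St W).indicator (1 : ℝ × ℝ → ℝ≥0∞) (b, y))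
      = (Metric.ball (-b) W).indicator 1 := by
    funext y
    by_cases hy : |b + y| < W
    · rw [indicator_of_mem (show (b, y) ∈ St W from hy), indicator_of_mem]
      · rfl
      · rw [Metric.mem_ball, Real.dist_eq, sub_neg_eq_add, add_comm]; exact hy
    · rw [indicator_of_notMem (show (b, y) ∉ St W from hy), indicator_of_notMem]
      rw [Metric.mem_ball, Real.dist_eq, sub_neg_eq_add, add_comm]; exact hy
  rw [h, lintegral_indicator_one measurableSet_ball, Real.volume_ball]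

theorem strip_int' (W b : ℝ) :
    ∫⁻ y : ℝ, (St W).indicator (1 : ℝ × ℝ → ℝ≥0∞) (y, b) = ENNReal.ofReal (2 * W) := by
  rw [← strip_int W b]
  refine lintegral_congr fun y => ?_
  by_cases hy : |y + b| < W
  · rw [indicator_of_mem (show (y, b) ∈ St W from hy),
      indicator_of_mem (show (b, y) ∈ St W by show |b + y| < W; rwa [add_comm])]
    rfl
  · rw [indicator_of_notMem (show (y, b) ∉ St W from hy),
      indicator_of_notMem (show (b, y) ∉ St W by show ¬ |b + y| < W; rwa [add_comm])]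

theorem stripB (W : ℝ) {K : ℝ → ℝ≥0∞} (hK : Measurable K) :
    ∫⁻ y : ℝ × ℝ, (St W).indicator 1 y * K y.1 = ENNReal.ofReal (2 * W) * ∫⁻ b, K b := by
  have hm : Measurable fun y : ℝ × ℝ => (St W).indicator (1 : ℝ × ℝ → ℝ≥0∞) y * K y.1 :=
    (measurable_one.indicator (St_meas W)).mul (hK.comp measurable_fst)
  rw [Measure.volume_eq_prod, lintegral_prod _ hm.aemeasurable]
  have h : ∀ b : ℝ, ∫⁻ y : ℝ, (St W).indicator (1 : ℝ × ℝ → ℝ≥0∞) (b, y) * K b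
      = ENNReal.ofReal (2 * W) * K b := by
    intro b
    have hmb : Measurable fun y : ℝ => (St W).indicator (1 : ℝ × ℝ → ℝ≥0∞) (b, y) :=
      (measurable_one.indicator (St_meas W)).comp measurable_prodMk_left
    rw [lintegral_mul_const _ hmb, strip_int]
  simp only [h]
  rw [lintegral_const_mul _ hK]

theorem stripG (W : ℝ) {K : ℝ → ℝ≥0∞} (hK : Measurable K) :
    ∫⁻ y : ℝ × ℝ, (St W).indicator 1 y * K y.2 = ENNReal.ofReal (2 * W) * ∫⁻ b, K b := by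
  have hm : Measurable fun y : ℝ × ℝ => (St W).indicator (1 : ℝ × ℝ → ℝ≥0∞) y * K y.2 :=
    (measurable_one.indicator (St_meas W)).mul (hK.comp measurable_snd)
  rw [Measure.volume_eq_prod, lintegral_prod_symm _ hm.aemeasurable]
  have h : ∀ b : ℝ, ∫⁻ y : ℝ, (St W).indicator (1 : ℝ × ℝ → ℝ≥0∞) (y, b) * K b
      = ENNReal.ofReal (2 * W) * K b := by
    intro b
    have hmb : Measurable fun y : ℝ => (St W).indicator (1 : ℝ × ℝ → ℝ≥0∞) (y, b) :=
      (measurable_one.indicator (St_meas W)).comp measurable_prodMk_right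
    rw [lintegral_mul_const _ hmb, strip_int']
  simp only [h]
  rw [lintegral_const_mul _ hK]

variable {φ : ℝ → ℝ≥0∞}

theorem four_meas (hφ : Measurable φ) (H d₁ d₂ e₁ e₂ : ℝ) :
    Measurable fun z : ℝ × (ℝ × ℝ) =>
      φ (e₁ * z.2.1 + e₂ * z.2.2) * (qE H (d₁ * z.2.1) * qE H (d₂ * (z.1 - z.2.2))) := by
  have h1 : Measurable fun z : ℝ × (ℝ × ℝ) => e₁ * z.2.1 + e₂ * z.2.2 := by fun_prop
  have h2 : Measurable fun z : ℝ × (ℝ × ℝ) => d₁ * z.2.1 := by fun_prop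
  have h3 : Measurable fun z : ℝ × (ℝ × ℝ) => d₂ * (z.1 - z.2.2) := by fun_prop
  exact (hφ.comp h1).mul (((qE_meas H).comp h2).mul ((qE_meas H).comp h3))

/-- the weight of one variable, integrated -/
theorem four (hφ : Measurable φ) (H : ℝ) {d₁ d₂ e₂ : ℝ} (e₁ : ℝ) (hd₁ : d₁ ≠ 0) (hd₂ : d₂ ≠ 0)
    (he : e₂ ≠ 0) :
    ∫⁻ b : ℝ, ∫⁻ p : ℝ × ℝ, φ (e₁ * p.1 + e₂ * p.2) * (qE H (d₁ * p.1) * qE H (d₂ * (b - p.2)))
      = (ENNReal.ofReal |d₁|⁻¹ * ENNReal.ofReal H) * (ENNReal.ofReal |d₂|⁻¹ * ENNReal.ofReal H) *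
        (ENNReal.ofReal |e₂|⁻¹ * ∫⁻ x, φ x) := by
  rw [lintegral_lintegral_swap (four_meas hφ H d₁ d₂ e₁ e₂).aemeasurable]
  have h1 : ∀ p : ℝ × ℝ,
      ∫⁻ b : ℝ, φ (e₁ * p.1 + e₂ * p.2) * (qE H (d₁ * p.1) * qE H (d₂ * (b - p.2)))
      = (ENNReal.ofReal |d₂|⁻¹ * ENNReal.ofReal H) *
        (qE H (d₁ * p.1) * φ (e₁ * p.1 + e₂ * p.2)) := by
    intro p
    have h2 : Measurable fun b : ℝ => qE H (d₂ * (b - p.2)) :=
      (qE_meas H).comp (by fun_prop)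
    have h3 : ∫⁻ b : ℝ, qE H (d₂ * (b - p.2)) = ENNReal.ofReal |d₂|⁻¹ * ENNReal.ofReal H := by
      rw [← qE_int H hd₂ (-(d₂ * p.2))]
      refine lintegral_congr fun b => ?_
      congr 1; ring
    simp only [← mul_assoc]
    rw [lintegral_const_mul _ h2, h3]
    ring
  simp only [h1]
  have hm : Measurable fun p : ℝ × ℝ => qE H (d₁ * p.1) * φ (e₁ * p.1 + e₂ * p.2) := by
    have a1 : Measurable fun z : ℝ × ℝ => e₁ * z.1 + e₂ * z.2 := by fun_prop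
    have a2 : Measurable fun z : ℝ × ℝ => d₁ * z.1 := by fun_prop
    exact ((qE_meas H).comp a2).mul (hφ.comp a1)
  rw [lintegral_const_mul _ hm, Measure.volume_eq_prod, lintegral_prod _ hm.aemeasurable]
  have h4 : ∀ a : ℝ, ∫⁻ y : ℝ, qE H (d₁ * a) * φ (e₁ * a + e₂ * y)
      = (ENNReal.ofReal |e₂|⁻¹ * ∫⁻ x, φ x) * qE H (d₁ * a) := by
    intro a
    have h5 : Measurable fun y : ℝ => φ (e₁ * a + e₂ * y) := hφ.comp (by fun_prop)
    rw [lintegral_const_mul _ h5, mul_comm, ← lin1L e₂ (e₁ * a) he φ]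
    congr 1
    refine lintegral_congr fun b => ?_
    congr 1; ring
  simp only [h4]
  have h6 : Measurable fun a : ℝ => qE H (d₁ * a) := (qE_meas H).comp (by fun_prop)
  have h7 := qE_int H hd₁ 0
  simp only [add_zero] at h7
  rw [lintegral_const_mul _ h6, h7]
  ring

/-- the diagonal one -/
theorem diag (hφ : Measurable φ) (H W : ℝ) {d₁ d₂ e₁ e₂ : ℝ} (hd₁ : d₁ ≠ 0) (hd₂ : d₂ ≠ 0)
    (he : e₁ ≠ e₂) :
    ∫⁻ y : ℝ × ℝ, (St W).indicator 1 y * ∫⁻ p : ℝ × ℝ, φ (e₁ * p.1 + e₂ * p.2) *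
        (qE H (d₁ * (y.1 - p.1)) * qE H (d₂ * (y.2 - p.2)))
      = (ENNReal.ofReal |d₁|⁻¹ * ENNReal.ofReal H) * (ENNReal.ofReal |d₂|⁻¹ * ENNReal.ofReal H) *
        (ENNReal.ofReal |e₂ - e₁|⁻¹ * (ENNReal.ofReal (2 * W) * ∫⁻ x, φ x)) := by
  have hS : Measurable ((St W).indicator (1 : ℝ × ℝ → ℝ≥0∞)) :=
    measurable_one.indicator (St_meas W)
  have h1 : ∀ y : ℝ × ℝ, (St W).indicator (1 : ℝ × ℝ → ℝ≥0∞) y *
      ∫⁻ p : ℝ × ℝ, φ (e₁ * p.1 + e₂ * p.2) *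
        (qE H (d₁ * (y.1 - p.1)) * qE H (d₂ * (y.2 - p.2)))
      = ∫⁻ u : ℝ × ℝ, (St W).indicator (1 : ℝ × ℝ → ℝ≥0∞) y *
        (φ (e₁ * (y.1 - u.1) + e₂ * (y.2 - u.2)) * (qE H (d₁ * u.1) * qE H (d₂ * u.2))) := by
    intro y
    rw [← lintegral_sub_left_eq_self (fun p : ℝ × ℝ => φ (e₁ * p.1 + e₂ * p.2) *
        (qE H (d₁ * (y.1 - p.1)) * qE H (d₂ * (y.2 - p.2)))) y]
    have h2 : Measurable fun u : ℝ × ℝ => φ (e₁ * (y.1 - u.1) + e₂ * (y.2 - u.2)) *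
        (qE H (d₁ * u.1) * qE H (d₂ * u.2)) := by
      have a1 : Measurable fun u : ℝ × ℝ => e₁ * (y.1 - u.1) + e₂ * (y.2 - u.2) := by fun_prop
      have a2 : Measurable fun u : ℝ × ℝ => d₁ * u.1 := by fun_prop
      have a3 : Measurable fun u : ℝ × ℝ => d₂ * u.2 := by fun_prop
      exact (hφ.comp a1).mul (((qE_meas H).comp a2).mul ((qE_meas H).comp a3))
    rw [lintegral_const_mul _ h2]
    congr 1
    refine lintegral_congr fun u => ?_
    simp only [Prod.fst_sub, Prod.snd_sub, sub_sub_cancel]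
  simp only [h1]
  have hm : Measurable fun z : (ℝ × ℝ) × (ℝ × ℝ) => (St W).indicator (1 : ℝ × ℝ → ℝ≥0∞) z.1 *
        (φ (e₁ * (z.1.1 - z.2.1) + e₂ * (z.1.2 - z.2.2)) *
          (qE H (d₁ * z.2.1) * qE H (d₂ * z.2.2))) := by
    have a1 : Measurable fun z : (ℝ × ℝ) × (ℝ × ℝ) =>
      e₁ * (z.1.1 - z.2.1) + e₂ * (z.1.2 - z.2.2) := by fun_prop
    have a2 : Measurable fun z : (ℝ × ℝ) × (ℝ × ℝ) => d₁ * z.2.1 := by fun_prop
    have a3 : Measurable fun z : (ℝ × ℝ) × (ℝ × ℝ) => d₂ * z.2.2 := by fun_prop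
    exact (hS.comp measurable_fst).mul
      ((hφ.comp a1).mul (((qE_meas H).comp a2).mul ((qE_meas H).comp a3)))
  rw [lintegral_lintegral_swap hm.aemeasurable]
  have h3 : ∀ u : ℝ × ℝ, ∫⁻ y : ℝ × ℝ, (St W).indicator (1 : ℝ × ℝ → ℝ≥0∞) y *
        (φ (e₁ * (y.1 - u.1) + e₂ * (y.2 - u.2)) * (qE H (d₁ * u.1) * qE H (d₂ * u.2)))
      = (ENNReal.ofReal |e₂ - e₁|⁻¹ * (ENNReal.ofReal (2 * W) * ∫⁻ x, φ x)) *
        (qE H (d₁ * u.1) * qE H (d₂ * u.2)) := by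
    intro u
    have h4 : ∀ y : ℝ × ℝ, (St W).indicator (1 : ℝ × ℝ → ℝ≥0∞) y *
        (φ (e₁ * (y.1 - u.1) + e₂ * (y.2 - u.2)) * (qE H (d₁ * u.1) * qE H (d₂ * u.2)))
        = (fun q : ℝ × ℝ => ((Metric.ball (0 : ℝ) W).indicator (1 : ℝ → ℝ≥0∞) q.1 * φ q.2) *
          (qE H (d₁ * u.1) * qE H (d₂ * u.2)))
          (1 * y.1 + 1 * y.2 + 0, e₁ * y.1 + e₂ * y.2 + -(e₁ * u.1 + e₂ * u.2)) := by
      intro y
      have h5 : (St W).indicator (1 : ℝ × ℝ → ℝ≥0∞) y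
          = (Metric.ball (0 : ℝ) W).indicator (1 : ℝ → ℝ≥0∞) (1 * y.1 + 1 * y.2 + 0) := by
        rw [one_mul, one_mul, add_zero]
        by_cases hy : |y.1 + y.2| < W
        · rw [indicator_of_mem (show y ∈ St W from hy), indicator_of_mem]
          · rfl
          · rw [Metric.mem_ball, Real.dist_eq, sub_zero]; exact hy
        · rw [indicator_of_notMem (show y ∉ St W from hy), indicator_of_notMem]
          rw [Metric.mem_ball, Real.dist_eq, sub_zero]; exact hy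
      have h6 : e₁ * (y.1 - u.1) + e₂ * (y.2 - u.2)
          = e₁ * y.1 + e₂ * y.2 + -(e₁ * u.1 + e₂ * u.2) := by ring
      show _ = ((Metric.ball (0 : ℝ) W).indicator (1 : ℝ → ℝ≥0∞) (1 * y.1 + 1 * y.2 + 0) *
        φ (e₁ * y.1 + e₂ * y.2 + -(e₁ * u.1 + e₂ * u.2))) *
          (qE H (d₁ * u.1) * qE H (d₂ * u.2))
      rw [h5, h6]
      ring
    have h7 : (1 : ℝ) * e₂ - 1 * e₁ ≠ 0 := by simpa using sub_ne_zero.2 he.symm
    have h9 := lin2L 1 1 e₁ e₂ h7 0 (-(e₁ * u.1 + e₂ * u.2))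
      (fun q : ℝ × ℝ => ((Metric.ball (0 : ℝ) W).indicator (1 : ℝ → ℝ≥0∞) q.1 * φ q.2) *
          (qE H (d₁ * u.1) * qE H (d₂ * u.2)))
    have h10 : |(1 : ℝ) * e₂ - 1 * e₁| = |e₂ - e₁| := by rw [one_mul, one_mul]
    rw [h10] at h9
    rw [lintegral_congr h4]
    refine h9.trans ?_
    have hb : Measurable ((Metric.ball (0 : ℝ) W).indicator (1 : ℝ → ℝ≥0∞)) :=
      measurable_one.indicator measurableSet_ball
    have hm2 : Measurable fun q : ℝ × ℝ =>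
        (Metric.ball (0 : ℝ) W).indicator (1 : ℝ → ℝ≥0∞) q.1 * φ q.2 :=
      (hb.comp measurable_fst).mul (hφ.comp measurable_snd)
    rw [lintegral_mul_const _ hm2, Measure.volume_eq_prod,
      lintegral_prod_mul hb.aemeasurable hφ.aemeasurable,
      lintegral_indicator_one measurableSet_ball, Real.volume_ball, mul_assoc, mul_assoc,
      mul_assoc]
  simp only [h3]
  have a4 : Measurable fun x : ℝ => qE H (d₁ * x) := (qE_meas H).comp (by fun_prop)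
  have a5 : Measurable fun x : ℝ => qE H (d₂ * x) := (qE_meas H).comp (by fun_prop)
  have h7 := qE_int H hd₁ 0
  have h8 := qE_int H hd₂ 0
  simp only [add_zero] at h7 h8
  have hm3 : Measurable fun u : ℝ × ℝ => qE H (d₁ * u.1) * qE H (d₂ * u.2) :=
    (a4.comp measurable_fst).mul (a5.comp measurable_snd)
  rw [lintegral_const_mul _ hm3, Measure.volume_eq_prod,
    lintegral_prod_mul (f := fun x => qE H (d₁ * x)) (g := fun x => qE H (d₂ * x))
      a4.aemeasurable a5.aemeasurable, h7, h8]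
  ring

end Vale.Agent.P141.R2.H152
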