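import Vale.Agent.P141.R2.H152.Core

/-!
# Quadratic phases are structured functions (helper175)
-/

namespace Vale.Agent.P141.R2.H152

open MeasureTheory Set

theorem quad_one {φ : ℝ × ℝ × ℝ → ℝ} (hφ : Measurable φ) :
    One (fun z => Complex.exp (Complex.I * ((φ z : ℝ) : ℂ))) where
  meas := Complex.measurable_exp.comp
    (measurable_const.mul (Complex.measurable_ofReal.comp hφ))
  le := fun z => by
    rw [mul_comm, Complex.norm_exp_ofReal_mul_I]

theorem quad_cube (H : ℝ) (hH : 0 < H) :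
    (volume : Measure (ℝ × ℝ × ℝ)).real (Icc (0 : ℝ) H ×ˢ (Icc (0 : ℝ) H ×ˢ Icc (0 : ℝ) H))
      = H ^ 3 := by
  have h1 : (volume : Measure (ℝ × ℝ × ℝ)) (Icc (0 : ℝ) H ×ˢ (Icc (0 : ℝ) H ×ˢ Icc (0 : ℝ) H))
      = ENNReal.ofReal H * (ENNReal.ofReal H * ENNReal.ofReal H) := by
    rw [Measure.volume_eq_prod, Measure.prod_prod, Measure.volume_eq_prod, Measure.prod_prod,
      Real.volume_Icc, sub_zero]
  rw [Measure.real, h1, ← ENNReal.ofReal_mul hH.le, ← ENNReal.ofReal_mul hH.le,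
    ENNReal.toReal_ofReal (by positivity)]
  ring

/-- Every quadratic phase is a structured function of every scale. -/
theorem dual_quad {H : ℝ} (hH : 0 < H) (a b c : ℝ) :
    ∃ G₁ G₂ G₃ : ℝ × ℝ × ℝ → ℂ, One G₁ ∧ One G₂ ∧ One G₃ ∧
      ∀ x, dualFn H G₁ G₂ G₃ x =
        Complex.exp (Complex.I * ((a * x ^ 2 + b * x + c : ℝ) : ℂ)) := by
  refine ⟨fun z => Complex.exp (Complex.I * ((a * z.1 ^ 2 + b * z.1 + c : ℝ) : ℂ)),
    fun z => Complex.exp (Complex.I *
      ((-2 * a * z.1 * z.2.1 - a * z.2.1 ^ 2 - b * z.2.1 : ℝ) : ℂ)),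
    fun z => Complex.exp (Complex.I * ((2 * a * z.2.1 * z.2.2 : ℝ) : ℂ)),
    quad_one (by fun_prop), quad_one (by fun_prop), quad_one (by fun_prop), fun x => ?_⟩
  unfold dualFn
  have h1 : ∀ h : ℝ × ℝ × ℝ,
      Complex.exp (Complex.I * ((a * (x + h.1) ^ 2 + b * (x + h.1) + c : ℝ) : ℂ)) *
        Complex.exp (Complex.I *
          ((-2 * a * (x + h.2.1) * h.1 - a * h.1 ^ 2 - b * h.1 : ℝ) : ℂ)) *
        Complex.exp (Complex.I * ((2 * a * h.1 * h.2.1 : ℝ) : ℂ)) =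
      Complex.exp (Complex.I * ((a * x ^ 2 + b * x + c : ℝ) : ℂ)) := by
    intro h
    rw [← Complex.exp_add, ← Complex.exp_add]
    congr 1
    push_cast
    ring
  simp only [h1]
  rw [setIntegral_const, quad_cube H hH, Complex.real_smul, ← mul_assoc,
    inv_mul_cancel₀ (by exact_mod_cast (pow_pos hH 3).ne'), one_mul]

end Vale.Agent.P141.R2.H152
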