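import Vale.Agent.P141.R2.H152.Core

/-!
# The dual functions of the `U³` norm are structured
-/

namespace Vale.Agent.P141.R2.H152

open MeasureTheory Set

theorem dual_seven {H : ℝ} (F : Fin 7 → ℝ → ℂ) (hF : ∀ i, Measurable (F i))
    (hF1 : ∀ i x, ‖F i x‖ ≤ 1) :
    ∃ G₁ G₂ G₃ : ℝ × ℝ × ℝ → ℂ, One G₁ ∧ One G₂ ∧ One G₃ ∧ ∀ x, dualFn H G₁ G₂ G₃ x =
      ((H ^ 3 : ℝ) : ℂ)⁻¹ * ∫ h in Icc (0 : ℝ) H ×ˢ (Icc (0 : ℝ) H ×ˢ Icc (0 : ℝ) H),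
        F 0 (x + h.1) * F 1 (x + h.2.1) * F 2 (x + h.2.2) * F 3 (x + h.1 + h.2.1) *
          F 4 (x + h.1 + h.2.2) * F 5 (x + h.2.1 + h.2.2) * F 6 (x + h.1 + h.2.1 + h.2.2) := by
  refine ⟨fun z => F 0 z.1 * F 3 (z.1 + z.2.1) * F 4 (z.1 + z.2.2) * F 6 (z.1 + z.2.1 + z.2.2),
    fun z => F 1 z.1 * F 5 (z.1 + z.2.2), fun z => F 2 z.1, ⟨?_, fun z => ?_⟩, ⟨?_, fun z => ?_⟩,
    ⟨(hF 2).comp measurable_fst, fun z => hF1 2 _⟩, fun x => ?_⟩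
  · have m0 : Measurable fun z : ℝ × ℝ × ℝ => F 0 z.1 := (hF 0).comp (by fun_prop)
    have m3 : Measurable fun z : ℝ × ℝ × ℝ => F 3 (z.1 + z.2.1) := (hF 3).comp (by fun_prop)
    have m4 : Measurable fun z : ℝ × ℝ × ℝ => F 4 (z.1 + z.2.2) := (hF 4).comp (by fun_prop)
    have m6 : Measurable fun z : ℝ × ℝ × ℝ => F 6 (z.1 + z.2.1 + z.2.2) :=
      (hF 6).comp (by fun_prop)
    exact ((m0.mul m3).mul m4).mul m6
  · simp only [norm_mul]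
    exact mul_le_one₀ (mul_le_one₀ (mul_le_one₀ (hF1 _ _) (norm_nonneg _) (hF1 _ _))
      (norm_nonneg _) (hF1 _ _)) (norm_nonneg _) (hF1 _ _)
  · have m1 : Measurable fun z : ℝ × ℝ × ℝ => F 1 z.1 := (hF 1).comp (by fun_prop)
    have m5 : Measurable fun z : ℝ × ℝ × ℝ => F 5 (z.1 + z.2.2) := (hF 5).comp (by fun_prop)
    exact m1.mul m5
  · simp only [norm_mul]
    exact mul_le_one₀ (hF1 _ _) (norm_nonneg _) (hF1 _ _)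
  · unfold dualFn
    congr 2
    funext h
    simp only
    ring

end Vale.Agent.P141.R2.H152
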